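import Crest.Agent.R264.Beta.Sd
import Crest.Agent.R264.Beta.Fac
import Crest.Agent.R264.Beta.Ret

set_option autoImplicit false
set_option linter.unusedSectionVars false
open Set Filter Topology Metric Complex

namespace Crest.Agent.R264

variable {E F G : Type}
  [NormedAddCommGroup E] [NormedSpace ℂ E] [NormedSpace ℝ E] [IsScalarTower ℝ ℂ E] [FiniteDimensional ℂ E]
  [NormedAddCommGroup F] [NormedSpace ℂ F] [NormedSpace ℝ F] [IsScalarTower ℝ ℂ F] [FiniteDimensional ℂ F]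
  [NormedAddCommGroup G] [NormedSpace ℂ G] [NormedSpace ℝ G] [IsScalarTower ℝ ℂ G] [FiniteDimensional ℂ G]

/-! The structure `SD` is defined in `Beta/Def.lean`. -/

/-- See `Blueprint.lean`, section Beta 1. -/
theorem HAct.sd {n k : ℕ} {X : Set E} (hX : CM n X) {A : Type} [Fintype A] {κ : (A → ℂ) →L[ℝ] (A → ℂ) →L[ℝ] ℝ}
    {T : ℝ → (A → ℂ) → E → E} {Dl : ℝ → E → E} {ρ : E → E} {Ω : Set E} (h : HAct X A κ T Dl ρ Ω)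
    (hk : Mfd k (ρ '' X)) (hd : k + Fintype.card A + 1 = n) : ∃ 𝒩 δ, SD X 𝒩 δ ρ Ω :=
  Beta.sd hX h hk hd

/-- Beta 2: reduction to the symmetric factor -/
theorem SD.factor {r s : ℕ} {D : Set E} {Y : Set F} (hD : CM r D) (hY : CM s Y) (hR : Rigid Y)
    {𝒩 : Set (E × F → E × F)} {δ ρ : E × F → E × F} {Ω : Set (E × F)} (h : SD (D ×ˢ Y) 𝒩 δ ρ Ω) :
    ∃ (𝒩' : Set (E → E)) (δ' ρ' : E → E), (∀ N ∈ 𝒩', Gen D N) ∧ Gen D δ' ∧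
      (∀ N ∈ 𝒩', br D δ' N = -N ∨ br D δ' N = -((2 : ℝ) • N)) ∧
      (∀ x ∈ D, δ' x ∈ Submodule.span ℂ ((fun N => N x) '' 𝒩')) ∧ AnalyticOn ℂ ρ' D ∧ MapsTo ρ' D D ∧
      (∀ x ∈ D, ρ' (ρ' x) = ρ' x) ∧ (∀ W ∈ insert δ' 𝒩', ∀ x ∈ D, der D W ρ' x = 0) ∧
      (∀ (u : E → E), AnalyticOn ℂ u D → (∀ W ∈ insert δ' 𝒩', ∀ x ∈ D, der D W u x = 0) → ∀ x ∈ D, u (ρ' x) = u x) ∧
      ∃ f g : E × F → E × F, Bih (ρ '' (D ×ˢ Y)) ((ρ' '' D) ×ˢ Y) f g :=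
  Beta.factor hD hY hR h

/-- Beta 3: the cross-section of a symmetric domain is symmetric -/
theorem Sym.retract {r : ℕ} {D : Set E} (hD : Sym r D) {𝒩 : Set (E → E)} {δ ρ : E → E} (hN : ∀ N ∈ 𝒩, Gen D N)
    (hδ : Gen D δ) (hw : ∀ N ∈ 𝒩, br D δ N = -N ∨ br D δ N = -((2 : ℝ) • N))
    (hdep : ∀ x ∈ D, δ x ∈ Submodule.span ℂ ((fun N => N x) '' 𝒩)) (ha : AnalyticOn ℂ ρ D) (hm : MapsTo ρ D D)
    (hi : ∀ x ∈ D, ρ (ρ x) = ρ x) (hinv : ∀ W ∈ insert δ 𝒩, ∀ x ∈ D, der D W ρ x = 0)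
    (hu : ∀ (u : E → E), AnalyticOn ℂ u D → (∀ W ∈ insert δ 𝒩, ∀ x ∈ D, der D W u x = 0) → ∀ x ∈ D, u (ρ x) = u x) :
    ∃ k, Sym k (ρ '' D) :=
  Beta.retract' hD hN hδ hw hdep ha hm hi hinv hu

theorem stBeta {n k r s : ℕ} {D : Set E} {Y : Set F} (hD : Sym r D) (hY : CM s Y) (hR : Rigid Y)
    (hX : CM n (D ×ˢ Y)) {A : Type} [Fintype A] {κ : (A → ℂ) →L[ℝ] (A → ℂ) →L[ℝ] ℝ}
    {T : ℝ → (A → ℂ) → E × F → E × F} {Dl : ℝ → E × F → E × F} {ρ : E × F → E × F} {Ω : Set (E × F)}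
    (h : HAct (D ×ˢ Y) A κ T Dl ρ Ω) (hk : Mfd k (ρ '' (D ×ˢ Y))) (hd : k + Fintype.card A + 1 = n) :
    ∃ (r' : ℕ) (D' : Set E) (f g : E × F → E × F), Sym r' D' ∧ Bih (ρ '' (D ×ˢ Y)) (D' ×ˢ Y) f g := by
  obtain ⟨𝒩, δ, hsd⟩ := h.sd hX hk hd
  obtain ⟨𝒩', δ', ρ', h1, h2, h3, h4, h5, h6, h7, h8, h9, f, g, hb⟩ := hsd.factor hD.cm hY hR
  obtain ⟨k', hs⟩ := hD.retract h1 h2 h3 h4 h5 h6 h7 h8 h9
  exact ⟨k', _, f, g, hs, hb⟩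

/-- the involution at `p` is `fl Z π`: its derivative at `p` is `exp (π I) = -1` (`Gen.Dv_fl`), its square is the
identity (`cartan`), and `p` is an isolated fixed point since the derivative of `s z - z` at `p` is `-2`. -/
theorem Sym.bsd {r : ℕ} {D : Set (Fin r → ℂ)} (hO : IsOpen D) (h : Sym r D) :
    Crest.AlgGeometry.Semialg.IsBoundedSymmetricDomain D :=
  Beta.bsd hO h

end Crest.Agent.R264
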