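import Crest.Agent.R264.JA.Two
import Crest.Agent.R264.JA.B1

/-! Pure algebra: j-algebras.  See `Blueprint.lean`, section JA. -/

set_option autoImplicit false
set_option linter.unusedSectionVars false
open Complex

namespace Crest.Agent.R264

variable {L V V' : Type} [LieRing L] [LieAlgebra ℝ L] [FiniteDimensional ℝ L]
  [AddCommGroup V] [Module ℂ V] [Module ℝ V] [IsScalarTower ℝ ℂ V] [FiniteDimensional ℂ V]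
  [AddCommGroup V'] [Module ℂ V'] {ev : L →ₗ[ℝ] V}

theorem ja1 (h : JAlg ev) (hn : NegK ev) (hu : ∀ a, LinearMap.trace ℝ L (LieAlgebra.ad ℝ L a) = 0) :
    LieAlgebra.IsKilling ℝ L :=
  ja1' h hn hu

theorem ja2 (h : JAlg ev) (hn : NegK ev) (hk : LieAlgebra.IsKilling ℝ L) :
    ∃ Z, Car ev Z ∧ ∃ 𝔪 : Submodule ℝ L, IsCompl 𝔪 (LinearMap.ker ev) ∧
      ∀ a ∈ 𝔪, a ≠ 0 → 0 < killingForm ℝ L a a :=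
  ja2' h hn hk

theorem ja3 (h : JAlg ev) (hn : NegK ev) {Z : L} (hZ : Car ev Z) :
    LieAlgebra.IsKilling ℝ L ∧ ∀ a, ⁅Z, a⁆ ≠ 0 → 0 < killingForm ℝ L ⁅Z, a⁆ ⁅Z, a⁆ :=
  ja3' h hn hZ

/-- `𝔲`, `𝔭` = sums of the generalised eigenspaces of `ad δ` with `Re λ < 0`, `Re λ ≤ 0` -/
theorem jab1 (hk : LieAlgebra.IsKilling ℝ L) (δ : L) (𝒩 : Set L) (hN : ∀ N ∈ 𝒩, ⁅δ, N⁆ = -N ∨ ⁅δ, N⁆ = -((2 : ℝ) • N)) :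
    ∃ 𝔲 𝔭 : Submodule ℝ L, 𝔲 ≤ 𝔭 ∧ (∀ P ∈ 𝔭, ∀ N ∈ 𝔲, ⁅P, N⁆ ∈ 𝔲) ∧ (∀ N ∈ 𝒩, ∀ P ∈ 𝔭, ⁅N, P⁆ ∈ 𝔲) ∧
      (∀ N ∈ 𝔲, ∀ P ∈ 𝔭, killingForm ℝ L N P = 0) ∧
      Module.finrank ℝ 𝔲 + Module.finrank ℝ 𝔭 = Module.finrank ℝ L ∧
      ∀ 𝔳 : Submodule ℝ L, (∀ W, (∀ N ∈ 𝒩, ⁅N, W⁆ ∈ 𝔳) → ⁅δ, W⁆ ∈ 𝔳) → 𝔲 ≤ 𝔳 :=
  jab1' hk δ 𝒩 hN

theorem jab2 (h : JAlg ev) (hn : NegK ev) {Z : L} (hZ : Car ev Z) {𝔲 𝔭 : Submodule ℝ L} (hle : 𝔲 ≤ 𝔭)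
    (hb : ∀ P ∈ 𝔭, ∀ N ∈ 𝔲, ⁅P, N⁆ ∈ 𝔲) (ho : ∀ N ∈ 𝔲, ∀ P ∈ 𝔭, killingForm ℝ L N P = 0)
    (hd : Module.finrank ℝ 𝔲 + Module.finrank ℝ 𝔭 = Module.finrank ℝ L) (p : V →ₗ[ℂ] V')
    (hp : ∀ N ∈ 𝔲, p (ev N) = 0) :
    ∃ Z' ∈ 𝔭, ev Z' = 0 ∧ ∀ a, ∃ a' ∈ 𝔭, p (ev a') = p (ev a) ∧ p (ev ⁅Z', a'⁆) = -(I • p (ev a')) :=
  jab2' h hn hZ hle hb ho hd p hp

end Crest.Agent.R264
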