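import Crest.Agent.R264.Model.Lim
import Crest.Agent.R264.Cell.Line

set_option autoImplicit false
set_option linter.unusedSectionVars false
open Set Filter Topology Metric Complex

namespace Crest.Agent.R264

variable {E : Type} [NormedAddCommGroup E] [NormedSpace ℂ E] [NormedSpace ℝ E] [IsScalarTower ℝ ℂ E]
  [FiniteDimensional ℂ E] {A B : Type} [Fintype A] [Fintype B] {G : Geo A B} {R : Amb A B → ℝ} {n : ℕ} {X : Set E}
  {π : E → Amb A B} {S : Sq E A B}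

theorem ACls.up {C : Set (Amb A B)} (hX : CM n X) (hn : Module.finrank ℂ (Amb A B) = n) (hc : ACls X π R C) :
    Up n X π := by
  obtain ⟨x₀, hx₀, hR₀⟩ := hc.ex
  obtain ⟨W₀, hW₀, hq₀, 𝒮, -, h𝒮, hcov⟩ := hc.pp _ hR₀
  obtain ⟨σ₀, hσ₀, -⟩ := hcov x₀ hx₀ hq₀
  exact ⟨hX, hn, hc.an, hc.bdd, _, ((h𝒮 σ₀ hσ₀).nhds hX.mfd hn hc.an hW₀ hq₀).1⟩

/-- model points over nearby points of the leaf, seen from `z` -/
theorem mod_transfer (h : G.OK R) (u : Up n X π) (hS : S.OK G X π) {z : Amb A B} (hz : z ∈ G.Z) (hn : G.nd z) :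
    ∀ᶠ z' in 𝓝 z, (z' ∈ G.Z → G.r z z' = 0 ∧ G.b z z'.2.2 = z') ∧ ∀ y m, S.P y = z' → S.MOD G X π y m →
      (∀ᶠ j in S.U, 0 < G.r z (π (S.g j y)) ∧ S.g j y ∈ Reg X π) ∧ Tendsto (S.Ph G π z y) S.U (𝓝 m) ∧
        G.InM z m := by
  have hc : ContinuousAt (fun q : Amb A B => q.2.2) z := by fun_prop
  filter_upwards [h.near hz, hc.eventually ((h.b_germ hz).and ((h.rgerm z hz hn).and (h.r_self hz hn).2.2))]
    with z' h1 h2
  refine ⟨fun hz' => ⟨by rw [← h1 hz']; exact h2.2.2, h1 hz'⟩, fun y m e hm => ?_⟩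
  have ht := hm.t_eq hS
  obtain ⟨hy, hZ, -, W', N', σ', d, f1, f2, f3⟩ := hm
  rw [Sq.tP, e] at ht
  rw [e] at hZ d f1 f2 f3
  rw [h1 hZ] at h2
  have hl : Tendsto (fun j => π (S.g j y)) S.U (𝓝 z') := e ▸ hS.conv.tendsto_at hy
  refine ⟨?_, f2.congr' ?_, ?_⟩
  · filter_upwards [f1, hl.eventually h2.2.1] with j a1 a2
    refine ⟨a2 ▸ a1.1.2, a1.2 ▸ (d.sec.nhds u.cm.mfd u.dim u.an
      (d.anr.continuousOn.isOpen_inter_preimage d.oW isOpen_Ioi) a1.1).1⟩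
  · filter_upwards [hl.eventually h2.1.2] with j a1
    simp only [Sq.Ph, a1]
  · have := h2.1.1.eq_of_nhds
    rw [Geo.InM, ht] at f3 ⊢
    rwa [← this]

/-- good points: the data are the one-sided sections of `LT` on the side `{G.r z > 0}` (`sign_swap`, `half_box`,
`Sec.pick`, `Small.not_hyp`).  See `Blueprint.lean`, Cell 1. -/
theorem loc_good {C : Set (Amb A B)} (h : G.OK R) (u : Up n X π) (hc : ACls X π R C) (hS : S.OK G X π) {z : Amb A B}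
    (hz : z ∈ G.Z) (hn : G.nd z) (hC : z ∉ C) : ∃ (W : Set (Amb A B)) (𝒟 : Set (Amb A B → E)), 𝒟.Finite ∧
      (∀ σ ∈ 𝒟, G.Datum X π z W ∅ σ) ∧ ∀ᶠ z' in 𝓝 z, ∀ y m, S.P y = z' → S.MOD G X π y m →
        ∃ σ ∈ 𝒟, S.Foll G π z W σ y m := by
  obtain ⟨h0, hd, -⟩ := h.r_self hz hn
  have hR := (h.rR z hz hn).self_of_nhds h0
  obtain ⟨V₁, r₁, hV₁, hpV, hr₁, hd₁, hRr, 𝒮₀, 𝒮p, 𝒮m, f0, fp, fm, h₀, hp', hm', hcov⟩ := hc.lt z hC hR
  obtain ⟨c, hc0, -, hs⟩ := sign_swap (h.anr z hz hn) (hr₁ z hpV) h0 hd hd₁ (by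
    filter_upwards [h.rR z hz hn, hV₁.mem_nhds hpV] with q hq hqV h
    exact (hRr q hqV).1 (hq h))
  obtain ⟨W, hW, hzW, hWs, hr, -⟩ := half_box (h.anr z hz hn) h0 hd (hs.and (hV₁.eventually_mem hpV))
  have key : ∀ (r' : Amb A B → ℝ) (𝒟 : Set (Amb A B → E)), 𝒟.Finite →
      (∀ σ ∈ 𝒟, Sec X π (V₁ ∩ {q' | 0 < r' q'}) σ ∧ Walled X π V₁ r' ∅ σ) →
      (∀ q ∈ W, (G.r z q = 0 → r' q = 0) ∧ (0 < G.r z q → 0 < r' q)) →
      (∀ x ∈ Reg X π, π x ∈ V₁ → 0 < r' (π x) → (∃ σ ∈ 𝒮₀, σ (π x) = x) ∨ ∃ σ ∈ 𝒟, σ (π x) = x) →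
      ∃ (W : Set (Amb A B)) (𝒟 : Set (Amb A B → E)), 𝒟.Finite ∧
      (∀ σ ∈ 𝒟, G.Datum X π z W ∅ σ) ∧ ∀ᶠ z' in 𝓝 z, ∀ y m, S.P y = z' → S.MOD G X π y m →
        ∃ σ ∈ 𝒟, S.Foll G π z W σ y m := by
    intro r' 𝒟 hf h𝒟 hr' hcov'
    have hsub : W ∩ {q | 0 < G.r z q} ⊆ V₁ ∩ {q' | 0 < r' q'} := fun q hq => ⟨(hWs hq.1).2, (hr' q hq.1).2 hq.2⟩
    refine ⟨W, 𝒟, hf, fun σ hσ => ⟨hW, hzW, hr, Small.empty _, fun x _ hx => by simp at hx,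
      (h𝒟 σ hσ).1.mono hsub, fun x hx hxW h1 h2 h3 => (h𝒟 σ hσ).2 x hx (hWs hxW).2 ((hr' _ hxW).1 h1) h2
        (closure_mono (image_mono hsub) h3)⟩, ?_⟩
    filter_upwards [mod_transfer h u hS hz hn, hW.mem_nhds hzW] with z' h1 hz' y m e hm
    obtain ⟨a1, a2, a3⟩ := h1.2 y m e hm
    have hl : Tendsto (fun j => π (S.g j y)) S.U (𝓝 z') := e ▸ hS.conv.tendsto_at hm.1
    have hW' := hl.eventually (hW.mem_nhds hz')
    have a4 : ∀ᶠ j in S.U, (∃ σ ∈ 𝒮₀, σ (π (S.g j y)) = S.g j y) ∨ ∃ σ ∈ 𝒟, σ (π (S.g j y)) = S.g j y := by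
      filter_upwards [a1, hW'] with j b1 b2
      exact hcov' _ b1.2 (hWs b2).2 ((hr' _ b2).2 b1.1)
    rcases Ultrafilter.eventually_or.1 a4 with a5 | a5
    · obtain ⟨σ, hσ, a6⟩ := (Ultrafilter.eventually_exists_mem_iff f0).1 a5
      exact absurd ((((h₀ σ hσ).1 _ (hWs hz').2).continuousAt.tendsto.comp hl).congr' a6)
        (hS.div y hm.1 _ ((h₀ σ hσ).2 _ (hWs hz').2).1)
    · obtain ⟨σ, hσ, a6⟩ := (Ultrafilter.eventually_exists_mem_iff hf).1 a5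
      refine ⟨σ, hσ, ?_, a2, a3⟩
      filter_upwards [a1, hW', a6] with j b1 b2 b3
      exact ⟨⟨b2, b1.1⟩, b3⟩
  rcases hc0.lt_or_gt with hc0 | hc0
  · refine key (fun q => -r₁ q) 𝒮m fm hm' (fun q hq => ⟨fun h => neg_eq_zero.2 ((hWs hq).1.1.1 h),
      fun h => neg_pos.2 (neg_of_mul_pos_right ((hWs hq).1.2.1.1 h) hc0.le)⟩) fun x hx hxV h => ?_
    rcases hcov x hx hxV with h1 | h1 | h1
    exacts [Or.inl h1, absurd h1.1 (not_lt.2 (neg_pos.1 h).le), Or.inr h1.2]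
  · refine key r₁ 𝒮p fp hp' (fun q hq => ⟨fun h => (hWs hq).1.1.1 h,
      fun h => (mul_pos_iff_of_pos_left hc0).1 ((hWs hq).1.2.1.1 h)⟩) fun x hx hxV h => ?_
    rcases hcov x hx hxV with h1 | h1 | h1
    exacts [Or.inl h1, Or.inr h1.2, absurd h (not_lt.2 (neg_pos.1 h1.1).le)]

/-- cell points.  See `Blueprint.lean`, Cell 2. -/
theorem loc_cell {C : Set (Amb A B)} {R₁ : (B → ℂ) → ℝ} (h : G.OK R) (u : Up n X π) (hc : ACls X π R C)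
    (hS : S.OK G X π) {z : Amb A B} (hz : z ∈ G.Z) (hn : G.nd z) (h1 : R₁ z.2.2 = 0) (hcell : G.Cell R C R₁ z) :
    ∃ (W N : Set (Amb A B)) (𝒟 : Set (Amb A B → E)), 𝒟.Finite ∧ (∀ σ ∈ 𝒟, G.Datum X π z W N σ) ∧
      ∀ᶠ τ in 𝓝 z.2.2, R₁ τ = 0 → ∀ y ∈ Sub X S.tP, S.P y = G.b z τ → (∀ᶠ y' in 𝓝[X] y, S.P y' ∈ G.Z) →
        (∃ᶠ y' in 𝓝[X] y, ∃ m, S.MOD G X π y' m) → ∃ σ ∈ 𝒟, ∃ᶠ y' in 𝓝[X] y, ∃ m, S.Foll G π z W σ y' m := by
  classical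
  obtain ⟨v₀, η, hη, hinv, hη0, hdr, hdb, hRb, hcell⟩ := hcell
  have hX := u.cm.mfd
  have hbz := h.bz z hz
  have hban : ∀ᶠ τ in 𝓝 z.2.2, AnalyticAt ℂ (G.b z) τ := (h.anb z hz).eventually_analyticAt
  have hchain : ∀ τ, AnalyticAt ℂ (G.b z) τ → ∀ c, fderiv ℝ (fun τ => η (G.b z τ)) τ c =
      fderiv ℝ η (G.b z τ) (fderiv ℂ (G.b z) τ c) := by
    intro τ hτ c
    have := ((hη _ trivial).differentiableAt.hasFDerivAt.comp τ
      (hτ.differentiableAt.hasFDerivAt.restrictScalars ℝ)).fderiv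
    rw [show (fun τ => η (G.b z τ)) = η ∘ G.b z from rfl, this]
    rfl
  have hdη : fderiv ℝ η z ≠ 0 := fun h0 => hdb (by
    ext c
    rw [hchain _ (h.anb z hz), hbz, h0]; rfl)
  obtain ⟨v, W, T, T', hzW, b₁, b₂, hN⟩ := exists_box (C := C) (continuousOn_univ.1 hc.anR.continuousOn)
    (h.anr z hz hn) (h.r_self hz hn).1 hdr hη hinv hη0 hdη (h.rR z hz hn) hcell
  obtain ⟨𝒰, f1, hU, hcov⟩ := b₁.exists_up hX u.dim hc
  obtain ⟨𝒰', f2, hU', hcov'⟩ := b₂.exists_up hX u.dim hc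
  set N := W ∩ {q | η q = 0 ∧ G.r z q = 0} with hNd
  set Good : Set (Set E) := {U | ∃ σ, Sec X π (W ∩ {q | 0 < G.r z q}) σ ∧ Walled X π W (G.r z) N σ ∧
    ∀ x ∈ U, σ (π x) = x} with hGood
  choose! sel hsel using fun U (hU : U ∈ Good) => hU
  have hfin : (sel '' (𝒰 ∩ Good)).Finite := (f1.inter_of_left _).image _
  refine ⟨W, N, sel '' (𝒰 ∩ Good), hfin, ?_, ?_⟩
  · rintro _ ⟨U, hU₀, rfl⟩
    refine ⟨b₁.oW, hzW, b₁.anr, hN, fun x hx hcl => ?_, (hsel U hU₀.2).1, (hsel U hU₀.2).2.1⟩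
    have hfr := mem_closure_iff_frequently.1 hcl
    exact ⟨hx, tendsto_nhds_unique_of_frequently_eq b₁.cη.continuousAt tendsto_const_nhds
      (hfr.mono fun q hq => hq.1.2.1), tendsto_nhds_unique_of_frequently_eq (b₁.anr x hx).continuousAt
      tendsto_const_nhds (hfr.mono fun q hq => hq.1.2.2)⟩
  have hanb : AnalyticAt ℝ (fun τ => η (G.b z τ)) z.2.2 :=
    (hη _ trivial).comp ((h.anb z hz).restrictScalars (𝕜 := ℝ))
  have hnear : ∀ᶠ τ in 𝓝 z.2.2, ∀ᶠ z' in 𝓝 (G.b z τ), _ := (h.anb z hz).continuousAt.eventually (by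
    rw [hbz]; exact ((mod_transfer h u hS hz hn).and (b₁.oW.eventually_mem hzW)).eventually_nhds)
  filter_upwards [hRb, hban, hanb.fderiv.continuousAt.eventually_ne hdb, hnear, h.bt z hz]
    with τ a1 a2 a3 a4 a5 hR₁ y hy hPy hZ hM
  refine hfin.frequently_exists.1 (frequently_iff.2 fun {O} hO => ?_)
  have hPc : Tendsto S.P (𝓝[X] y) (𝓝 (G.b z τ)) := hPy ▸ hS.anP.continuousOn y hy.1
  have hO' := (hPc.eventually a4).and (hZ.and hO)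
  have htP : AnalyticOn ℂ S.tP X := by
    intro x hx
    exact (analyticAt_snd.comp analyticAt_snd).comp_analyticWithinAt (hS.anP x hx)
  have hτ : S.tP y = τ := by rw [Sq.tP, hPy, a5.1]
  have hd : ∃ w ∈ Tan X y, fderiv ℝ η (S.P y) (Dv X S.P y w) ≠ 0 := by
    obtain ⟨c, hc⟩ : ∃ c, fderiv ℝ (fun τ => η (G.b z τ)) τ c ≠ 0 := by
      by_contra hne
      exact a3 (ContinuousLinearMap.ext fun c => by_contra fun h' => hne ⟨c, h'⟩)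
    obtain ⟨w, hw, e⟩ := hy.2 c
    refine ⟨w, hw, ?_⟩
    have e1 : S.P =ᶠ[𝓝[X] y] fun y' => G.b z (S.tP y') := hO'.mono fun y' h' => (h'.1.1.1 h'.2.1).2.symm
    rw [Dv_congr hy.1 e1, Dv_comp (Y := univ) (htP.differentiableOn y hy.1)
      (hτ ▸ a2.differentiableAt.differentiableWithinAt) (Eventually.of_forall fun _ => trivial) hw,
      Dv_of_mem_nhds univ_mem, e, hτ, hPy, ← hchain τ a2]
    exact hc
  have hbad := Small.iUnion fun j => Small.of_bih hX (hS.bih j)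
    (small_bad hX u.dim u.cm.conn.isPreconnected u.an u.reg hN)
  obtain ⟨k, θ, t₁, hθ, ht₁, hk, hkO, hk1, ⟨m, hm⟩, hsg⟩ := exists_line hX hS.anP hη hy.1
    (by rw [hPy]; exact a1 hR₁) hd hO' (M := {y' | ∃ m, S.MOD G X π y' m})
    (hM.mono fun y' ⟨m, hm⟩ => by
      obtain ⟨-, -, Φ, -, -, h3⟩ := hm.loc h u hS
      exact h3.mono fun y'' h4 => ⟨_, h4⟩) hbad
  have hsub : ∀ t ∈ Icc (-θ) θ, (t : ℂ) ∈ ball (0 : ℂ) (2 * θ) := fun t ht => by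
    rw [mem_ball_zero_iff, Complex.norm_real, Real.norm_eq_abs]
    linarith [abs_le.2 ht]
  have h00 : (0 : ℝ) ∈ Icc (-θ) θ := ⟨by linarith, hθ.le⟩
  have hsub' : uIcc 0 t₁ ⊆ Icc (-θ) θ := uIcc_subset_Icc h00 ht₁
  have hcomp : ∀ {f : E → Amb A B}, AnalyticOn ℂ f X → AnalyticOnNhd ℂ (fun ζ => f (k ζ)) (ball 0 (2 * θ)) :=
    fun hf ζ hζ => anAt_comp_param (hk ζ hζ) ((isOpen_ball.eventually_mem hζ).mono fun ζ' h' => (hkO ζ' h').1)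
      (hf _ (hkO ζ hζ).1)
  have hline := line_mono (l := (S.U : Filter ℕ)) (c := fun j ζ => π (S.g j (k ζ))) (c₀ := fun ζ => S.P (k ζ)) hθ
    (Eventually.of_forall fun j => (hcomp (u.an.comp (hS.bih j).af (hS.bih j).mf)).differentiableOn)
    (hcomp hS.anP) (hS.conv.comp k (fun ζ hζ => (hkO ζ hζ).1) hk.continuousOn) hη b₁.oW
    fun t ht => ⟨(hkO _ (hsub t ht)).2.1.2, (hk1 t ht).2⟩
  have k0 := hkO 0 (mem_ball_self (by linarith))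
  have k1 := hkO _ (hsub t₁ ht₁)
  have l0 := hS.conv.tendsto_at k0.1
  have l1 := hS.conv.tendsto_at k1.1
  obtain ⟨c1, c2, c3⟩ := k0.2.1.1.2 _ m rfl hm
  have hcross : ∀ᶠ j in S.U, (∃ U ∈ 𝒰, S.g j (k 0) ∈ U ∧ S.g j (k t₁) ∈ U) ∨ ∃ U ∈ 𝒰', S.g j (k 0) ∈ U := by
    filter_upwards [hline, (((b₁.cη.tendsto _).comp l0).mul ((b₁.cη.tendsto _).comp l1)).eventually
      (gt_mem_nhds hsg)] with j d1 d2
    refine cross (γ := fun t : ℝ => S.g j (k t)) u.an.continuousOn b₁.cη hU hU' hcov hcov' ?_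
      (fun t ht => ?_) (d1.2.injOn.mono hsub') d2
    · exact (hS.bih j).af.continuousOn.comp (hk.continuousOn.comp continuous_ofReal.continuousOn
        fun t ht => hsub t (hsub' ht)) fun t ht => (hkO _ (hsub t (hsub' ht))).1
    · have d3 := (hk1 t (hsub' ht)).1
      simp only [mem_iUnion, mem_preimage, mem_union, mem_compl_iff, not_exists, not_or, not_not] at d3
      exact ⟨(d3 j).1, d1.1 t (hsub' ht), (d3 j).2⟩
  have r0 := (k0.2.1.1.1 k0.2.2.1).1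
  have r1 := (k1.2.1.1.1 k1.2.2.1).1
  rcases Ultrafilter.eventually_or.1 hcross with d1 | d1
  · obtain ⟨U, hU₀, d2⟩ := (Ultrafilter.eventually_exists_mem_iff f1).1 d1
    have hg : U ∈ Good := (hU U hU₀).datum hX u.dim hc b₁ k0.2.1.2 k1.2.1.2 r0 r1 hsg
      (d2.mono fun j hj => hj.1) l0 (hS.div _ k0.1) (d2.mono fun j hj => hj.2) l1 (hS.div _ k1.1)
    refine ⟨k 0, k0.2.2.2, sel U, ⟨U, ⟨hU₀, hg⟩, rfl⟩, m, ?_, c2, c3⟩
    filter_upwards [c1, d2] with j e1 e2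
    exact ⟨⟨((hU U hU₀).sub _ e2.1).2, e1.1⟩, (hsel U hg).2.2 _ e2.1⟩
  · obtain ⟨U, hU₀, d2⟩ := (Ultrafilter.eventually_exists_mem_iff f2).1 d1
    obtain ⟨j, e1, e2⟩ := (c1.and ((hU' U hU₀).seq hX u.dim hc b₂ k0.2.1.2 (neg_eq_zero.2 r0)
      (left_ne_zero_of_mul hsg.ne) d2 l0 (hS.div _ k0.1)).2).exists
    exact absurd e1.1 (not_lt.2 (neg_pos.1 e2).le)

end Crest.Agent.R264
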