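import Mathlib
import Crest.Prelude.Def_SemialgDomain

/-!
Row 264 (S0402, Kollár–Pardon).  Definitions.  See `R264/Blueprint.lean` for the mathematics.
"Holomorphic on a set `X`" is Mathlib's `AnalyticOn ℂ f X` (`analyticWithinAt_iff_exists_analyticAt`:
locally the restriction of an ambient analytic map).
-/

set_option autoImplicit false
open Set Filter Topology Metric Complex

namespace Crest.Agent.R264

section Inst
variable (E : Type) [NormedAddCommGroup E] [NormedSpace ℂ E] [FiniteDimensional ℂ E]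

scoped instance (priority := 50) cplt : CompleteSpace E := FiniteDimensional.complete ℂ E
scoped instance (priority := 50) prop : ProperSpace E := FiniteDimensional.proper ℂ E
scoped instance (priority := 50) finR [NormedSpace ℝ E] [IsScalarTower ℝ ℂ E] : FiniteDimensional ℝ E :=
  Module.Finite.trans ℂ E

end Inst

section General
variable {E F G : Type} [NormedAddCommGroup E] [NormedSpace ℂ E] [NormedSpace ℝ E]
  [NormedAddCommGroup F] [NormedSpace ℂ F] [NormedSpace ℝ F]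

/-- complex tangent space of a set -/
def Tan (X : Set E) (x : E) : Submodule ℂ E := Submodule.span ℂ (tangentConeAt ℂ X x)

/-- derivative of `f` on `X` (meaningful on `Tan X x` only, `HasFDerivWithinAt.unique_on`) -/
noncomputable def Dv (X : Set E) (f : E → F) (x : E) : E →L[ℂ] F := fderivWithin ℂ f X x

/-- a chart of `X` : parametrisation `h` on `O`, ambient coordinate map `Ψ` on `W` -/
structure IsChart {n : ℕ} (X : Set E) (h : (Fin n → ℂ) → E) (Ψ : E → Fin n → ℂ) (O : Set (Fin n → ℂ))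
    (W : Set E) : Prop where
  oO : IsOpen O
  oW : IsOpen W
  ah : AnalyticOnNhd ℂ h O
  aΨ : AnalyticOnNhd ℂ Ψ W
  hO : ∀ v ∈ O, h v ∈ X ∩ W ∧ Ψ (h v) = v
  hW : ∀ y ∈ X ∩ W, Ψ y ∈ O ∧ h (Ψ y) = y

/-- `X` is an embedded complex submanifold of dimension `n` -/
def Mfd (n : ℕ) (X : Set E) : Prop :=
  ∀ x ∈ X, ∃ (h : (Fin n → ℂ) → E) (Ψ : E → Fin n → ℂ) (O : Set (Fin n → ℂ)) (W : Set E),
    IsChart X h Ψ O W ∧ x ∈ W

/-- a Carathéodory type pseudodistance (values in `[0, 2]`) -/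
noncomputable def cd (X : Set E) (x y : E) : ℝ :=
  ⨆ f : {f : E → ℂ // AnalyticOn ℂ f X ∧ ∀ z ∈ X, ‖f z‖ ≤ 1}, ‖f.1 x - f.1 y‖

/-- bounded connected manifold whose closed `cd`-balls of a uniform radius are compact -/
structure CM (n : ℕ) (X : Set E) : Prop where
  mfd : Mfd n X
  conn : IsConnected X
  bdd : Bornology.IsBounded X
  cpt : ∃ ε > 0, ∀ x ∈ X, IsCompact {y | y ∈ X ∧ cd X x y ≤ ε}

/-- `f : X → Y` is biholomorphic with inverse `g` -/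
structure Bih (X : Set E) (Y : Set F) (f : E → F) (g : F → E) : Prop where
  af : AnalyticOn ℂ f X
  ag : AnalyticOn ℂ g Y
  mf : MapsTo f X Y
  mg : MapsTo g Y X
  gf : ∀ x ∈ X, g (f x) = x
  fg : ∀ y ∈ Y, f (g y) = y

/-- the automorphism group acts cocompactly -/
def Coc (X : Set E) : Prop :=
  ∃ K, IsCompact K ∧ K ⊆ X ∧ ∀ x ∈ X, ∃ f g : E → E, Bih X X f g ∧ f x ∈ K

/-- a countable group acts properly discontinuously and cocompactly by automorphisms -/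
def Lat (X : Set E) : Prop :=
  ∃ (Γ : Type) (_ : Group Γ) (_ : Countable Γ) (act : Γ → E → E),
    (∀ γ, AnalyticOn ℂ (act γ) X ∧ MapsTo (act γ) X X) ∧ (∀ x ∈ X, act 1 x = x) ∧
    (∀ γ γ', ∀ x ∈ X, act (γ * γ') x = act γ (act γ' x)) ∧
    (∃ K, IsCompact K ∧ K ⊆ X ∧ ∀ x ∈ X, ∃ γ, act γ x ∈ K) ∧
    ∀ K, IsCompact K → K ⊆ X → {γ | (act γ '' K ∩ K).Nonempty}.Finite

/-- a one-parameter group of holomorphic self-maps of `X` -/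
structure IsGrp (X : Set E) (φ : ℝ → E → E) : Prop where
  an : ∀ t, AnalyticOn ℂ (φ t) X
  maps : ∀ t, MapsTo (φ t) X X
  zero : ∀ x ∈ X, φ 0 x = x
  add : ∀ s t, ∀ x ∈ X, φ (s + t) x = φ s (φ t x)

/-- `φ` is the flow of `W` -/
structure IsFlow (X : Set E) (W : E → E) (φ : ℝ → E → E) : Prop extends IsGrp X φ where
  der : ∀ x ∈ X, HasDerivAt (fun t => φ t x) (W x) 0

/-- complete holomorphic vector fields (infinitesimal automorphisms), normalised to `0` off `X` -/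
structure Gen (X : Set E) (W : E → E) : Prop where
  an : AnalyticOn ℂ W X
  off : ∀ x, x ∉ X → W x = 0
  flow : ∃ φ, IsFlow X W φ

open Classical in
/-- the flow of `W` -/
noncomputable def fl (X : Set E) (W : E → E) : ℝ → E → E :=
  if h : ∃ φ, IsFlow X W φ then h.choose else fun _ x => x

/-- holomorphic tangent vector field -/
structure VF (X : Set E) (W : E → E) : Prop where
  an : AnalyticOn ℂ W X
  tan : ∀ x ∈ X, W x ∈ Tan X x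

/-- derivative of `f` along the vector field `W` -/
noncomputable def der (X : Set E) (W : E → E) (f : E → F) : E → F := fun x => Dv X f x (W x)

/-- the bracket `[V, W] = DW(V) - DV(W)` -/
noncomputable def br (X : Set E) (V W : E → E) : E → E := X.indicator (fun x => der X V W x - der X W V x)

/-- push-forward of a vector field on `X` by `f : X → Y` with inverse `g` -/
noncomputable def push (X : Set E) (Y : Set F) (f : E → F) (g : F → E) (W : E → E) : F → F :=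
  Y.indicator (fun y => Dv X f (g y) (W (g y)))

/-- a real Lie algebra of complete holomorphic vector fields -/
structure LieRep (X : Set E) {L : Type} [LieRing L] [LieAlgebra ℝ L] (ι : L →ₗ[ℝ] (E → E)) : Prop where
  inj : Function.Injective ι
  gen : ∀ a, Gen X (ι a)
  lie : ∀ a b, ι ⁅a, b⁆ = br X (ι a) (ι b)

/-- evaluation at `x` -/
noncomputable def evx {L : Type} [AddCommGroup L] [Module ℝ L] (ι : L →ₗ[ℝ] (E → E)) (x : E) : L →ₗ[ℝ] E :=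
  (LinearMap.proj x : (E → E) →ₗ[ℝ] E).comp ι

/-- the values of `S` at each point are stable under multiplication by `I` -/
def CxVal (X : Set E) (S : Set (E → E)) : Prop := ∀ x ∈ X, ∀ W ∈ S, ∃ W' ∈ S, W' x = I • W x

def Rigid (Y : Set E) : Prop :=
  ∀ S : Submodule ℝ (E → E), (∀ W ∈ S, Gen Y W) → CxVal Y S → S = ⊥

/-- infinitesimally homogeneous and circular at every point -/
structure Sym (n : ℕ) (D : Set E) : Prop where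
  cm : CM n D
  tr : ∀ x ∈ D, ∀ v ∈ Tan D x, ∃ W, Gen D W ∧ W x = v
  circ : ∀ x ∈ D, ∃ Z, Gen D Z ∧ Z x = 0 ∧ ∀ v ∈ Tan D x, Dv D Z x v = I • v

/-- `S ∩ X` lies in countably many `C¹` submanifolds of real codimension two of `X` -/
def Small (X S : Set E) : Prop :=
  ∃ (O : ℕ → Set E) (g : ℕ → E → ℝ × ℝ),
    (∀ i, IsOpen (O i) ∧ ContDiffOn ℝ 1 (g i) (O i) ∧
      ∀ x ∈ X ∩ O i, g i x = 0 → ∀ c : ℝ × ℝ, ∃ v ∈ Tan X x, fderiv ℝ (g i) x v = c) ∧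
    ∀ x ∈ S ∩ X, ∃ i, x ∈ O i ∧ g i x = 0

/-- `S` is relatively closed in `X` -/
def ClIn (X S : Set E) : Prop := ∀ x ∈ X, x ∈ closure (S ∩ X) → x ∈ S

/-- points where the differential is injective -/
def Reg (X : Set E) (π : E → F) : Set E := {x | x ∈ X ∧ ∀ v ∈ Tan X x, Dv X π x v = 0 → v = 0}

/-- points where the differential is surjective -/
def Sub (X : Set E) (π : E → F) : Set E := {x | x ∈ X ∧ ∀ c : F, ∃ v ∈ Tan X x, Dv X π x v = c}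

/-- a holomorphic section of `π : X → F` over the (open) set `W` -/
def Sec (X : Set E) (π : E → F) (W : Set F) (σ : F → E) : Prop :=
  AnalyticOnNhd ℂ σ W ∧ ∀ q ∈ W, σ q ∈ X ∧ π (σ q) = q

/-- the section `σ` over `W ∩ {r > 0}` has no regular limit point over `W ∩ {r = 0} \ S` -/
def Walled (X : Set E) (π : E → F) (W : Set F) (r : F → ℝ) (S : Set F) (σ : F → E) : Prop :=
  ∀ x ∈ Reg X π, π x ∈ W → r (π x) = 0 → π x ∉ S → x ∉ closure (σ '' (W ∩ {q | 0 < r q}))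

/-- finite covering off `{R = 0}` -/
def PP (X : Set E) (π : E → F) (R : F → ℝ) : Prop :=
  ∀ q, R q ≠ 0 → ∃ W, IsOpen W ∧ q ∈ W ∧ ∃ 𝒮 : Set (F → E), 𝒮.Finite ∧ (∀ σ ∈ 𝒮, Sec X π W σ) ∧
    ∀ x ∈ X, π x ∈ W → ∃ σ ∈ 𝒮, σ (π x) = x

/-- local structure along `{R = 0} \ C` -/
def LT (X : Set E) (π : E → F) (R : F → ℝ) (C : Set F) : Prop :=
  ∀ q, q ∉ C → R q = 0 → ∃ (W : Set F) (r : F → ℝ), IsOpen W ∧ q ∈ W ∧ AnalyticOnNhd ℝ r W ∧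
    fderiv ℝ r q ≠ 0 ∧ (∀ q' ∈ W, R q' = 0 ↔ r q' = 0) ∧
    ∃ 𝒮₀ 𝒮p 𝒮m : Set (F → E), 𝒮₀.Finite ∧ 𝒮p.Finite ∧ 𝒮m.Finite ∧ (∀ σ ∈ 𝒮₀, Sec X π W σ) ∧
      (∀ σ ∈ 𝒮p, Sec X π (W ∩ {q' | 0 < r q'}) σ ∧ Walled X π W r ∅ σ) ∧
      (∀ σ ∈ 𝒮m, Sec X π (W ∩ {q' | 0 < -r q'}) σ ∧ Walled X π W (fun q' => -r q') ∅ σ) ∧
      ∀ x ∈ Reg X π, π x ∈ W → (∃ σ ∈ 𝒮₀, σ (π x) = x) ∨ (0 < r (π x) ∧ ∃ σ ∈ 𝒮p, σ (π x) = x) ∨
        (0 < -r (π x) ∧ ∃ σ ∈ 𝒮m, σ (π x) = x)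

/-- the analytic form of the inductive class -/
structure ACls (X : Set E) (π : E → F) (R : F → ℝ) (C : Set F) : Prop where
  an : AnalyticOn ℂ π X
  bdd : Bornology.IsBounded (π '' X)
  anR : AnalyticOnNhd ℝ R univ
  clC : IsClosed C
  smC : Small univ C
  pp : PP X π R
  lt : LT X π R C
  ex : ∃ x ∈ X, R (π x) ≠ 0

/-- holomorphic action of a Heisenberg group `T` and dilations `Dl`, with a retraction `ρ` onto a cross-section -/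
structure HAct (X : Set E) (A : Type) [Fintype A] (κ : (A → ℂ) →L[ℝ] (A → ℂ) →L[ℝ] ℝ)
    (T : ℝ → (A → ℂ) → E → E) (Dl : ℝ → E → E) (ρ : E → E) (Ω : Set E) : Prop where
  skew : ∀ a, κ a a = 0
  ndeg : ∀ a, (∀ a', κ a a' = 0) → a = 0
  anT : ∀ c a, AnalyticOn ℂ (T c a) X ∧ MapsTo (T c a) X X
  T0 : ∀ x ∈ X, T 0 0 x = x
  Tadd : ∀ c a c' a', ∀ x ∈ X, T c a (T c' a' x) = T (c + c' + κ a a') (a + a') x
  grp : IsGrp X Dl
  DT : ∀ s c a, ∀ x ∈ X, Dl s (T c a x) = T (Real.exp (2 * s) * c) (Real.exp s • a) (Dl s x)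
  sub : Ω ⊆ X
  dense : X ⊆ closure Ω
  cT : ∀ x ∈ Ω, ContinuousAt (fun ca : ℝ × (A → ℂ) => T ca.1 ca.2 x) 0
  cD : ∀ x ∈ Ω, ContinuousAt (fun s => Dl s x) 0
  ne : ∃ x ∈ X, T 1 0 x ≠ x
  anρ : AnalyticOn ℂ ρ X
  mρ : MapsTo ρ X X
  idem : ∀ x ∈ X, ρ (ρ x) = ρ x
  ρT : ∀ c a, ∀ x ∈ X, ρ (T c a x) = ρ x
  ρD : ∀ s, ∀ x ∈ X, ρ (Dl s x) = ρ x
  orb : ∀ x ∈ Ω, ∃ c a s, x = T c a (Dl s (ρ x))

end General

section JA
variable {L V : Type} [LieRing L] [LieAlgebra ℝ L] [AddCommGroup V] [Module ℂ V] [Module ℝ V]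

/-- abstract evaluation map of a Lie algebra of vector fields at a point -/
structure JAlg (ev : L →ₗ[ℝ] V) : Prop where
  cx : ∀ a, ∃ a', ev a' = I • ev a
  integ : ∀ A B A' B', ev A + I • ev B = 0 → ev A' + I • ev B' = 0 →
    ev (⁅A, A'⁆ - ⁅B, B'⁆) + I • ev (⁅A, B'⁆ + ⁅B, A'⁆) = 0
  kos : ∀ Ξ : Submodule ℂ V, (∀ v ∈ Ξ, ∃ a, ev a = v) → ∃ ψ : L →ₗ[ℝ] ℝ,
    (∀ A B, ev A + I • ev B = 0 → ∀ Λ : Ξ →ₗ[ℂ] Ξ,
      (∀ a (h : ev a ∈ Ξ), (Λ ⟨ev a, h⟩ : V) = ev ⁅a, A⁆ + I • ev ⁅a, B⁆) →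
      LinearMap.trace ℂ Ξ Λ = I * (ψ A : ℂ) - (ψ B : ℂ)) ∧
    ∀ A B, ev B = I • ev A → (∀ a, ev a ∈ Ξ → ev ⁅a, A⁆ + I • ev ⁅a, B⁆ ∈ Ξ) →
      0 ≤ ψ ⁅A, B⁆ ∧ (ev A ∈ Ξ → ev A ≠ 0 → 0 < ψ ⁅A, B⁆)

/-- the Killing form is negative definite on the isotropy algebra -/
def NegK (ev : L →ₗ[ℝ] V) : Prop := ∀ k, ev k = 0 → k ≠ 0 → killingForm ℝ L k k < 0

/-- `Z` generates the circle action at the point -/
def Car (ev : L →ₗ[ℝ] V) (Z : L) : Prop :=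
  ev Z = 0 ∧ (∀ k, ev k = 0 → ⁅Z, k⁆ = 0) ∧ ∀ a, ev ⁅Z, a⁆ = -(I • ev a)

end JA

section Alg
variable {σ ι : Type}

/-- transcendence degree of a real point over the subfield `𝕜` -/
noncomputable def td (𝕜 : Subfield ℝ) (q : σ → ℝ) : ℕ :=
  Cardinal.toNat (Algebra.trdeg 𝕜 (IntermediateField.adjoin 𝕜 (range q)))

/-- common zeros of a set of polynomials over `𝕜` -/
def ZS {𝕜 : Subfield ℝ} (J : Set (MvPolynomial σ 𝕜)) : Set (σ → ℝ) := {q | ∀ f ∈ J, MvPolynomial.aeval q f = 0}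

/-- polynomials over `𝕜` vanishing on `S` -/
def IS (𝕜 : Subfield ℝ) (S : Set (σ → ℝ)) : Set (MvPolynomial σ 𝕜) := {f | ∀ q ∈ S, MvPolynomial.aeval q f = 0}

def IsAlg (𝕜 : Subfield ℝ) (S : Set (σ → ℝ)) : Prop := ∃ J : Set (MvPolynomial σ 𝕜), S = ZS J

/-- real coordinates -/
def rc (z : ι → ℂ) : ι ⊕ ι → ℝ := Sum.elim (fun i => (z i).re) (fun i => (z i).im)

/-- a real polynomial as a function on `ℂ^ι` -/
noncomputable def pev (R : MvPolynomial (ι ⊕ ι) ℝ) (z : ι → ℂ) : ℝ := MvPolynomial.eval (rc z) R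

/-- real algebraic subsets of `ℂ^ι` of real codimension `≥ 2` -/
def Thin [Fintype ι] (C : Set (ι → ℂ)) : Prop :=
  ∃ 𝕜 : Subfield ℝ, Countable 𝕜 ∧ ∃ C' : Set (ι ⊕ ι → ℝ), IsAlg 𝕜 C' ∧
    (∀ q ∈ C', td 𝕜 q + 2 ≤ 2 * Fintype.card ι) ∧ C = rc ⁻¹' C'

variable {E : Type} [NormedAddCommGroup E] [NormedSpace ℂ E] [NormedSpace ℝ E]

/-- the inductive class -/
def Cls (n : ℕ) (X : Set E) : Prop :=
  ∃ (ι : Type) (_ : Fintype ι) (π : E → ι → ℂ) (R : MvPolynomial (ι ⊕ ι) ℝ) (C : Set (ι → ℂ)),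
    Fintype.card ι = n ∧ Thin C ∧ ACls X π (pev R) C

end Alg

section Geo

/-- coordinates `(w, u, t)` -/
abbrev Amb (A B : Type) := ℂ × (A → ℂ) × (B → ℂ)

/-- a Levi leaf `Z` of the wall hypersurface together with the 2-jets of the neighbouring leaves -/
structure Geo (A B : Type) [Fintype A] [Fintype B] where
  p : Amb A B
  Eqs : Set (Amb A B → ℂ)
  h0 : (B → ℂ) → ℂ
  b : Amb A B → (B → ℂ) → Amb A B
  th : Amb A B → (ℂ × (A → ℂ)) →L[ℂ] ℂ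
  xi : Amb A B → (A → ℂ) →L[ℝ] (A → ℂ)
  eta : Amb A B → (A → ℂ) →L[ℝ] (A → ℂ) →L[ℝ] ℂ
  be : Amb A B → (A → ℂ) →L[ℝ] ((A → ℂ) →L[ℂ] ℂ)
  ka : (A → ℂ) →L[ℝ] (A → ℂ) →L[ℝ] ℝ
  r : Amb A B → Amb A B → ℝ

namespace Geo
variable {A B : Type} [Fintype A] [Fintype B] (G : Geo A B)

/-- the leaf -/
def Z : Set (Amb A B) := connectedComponentIn {z | (∀ f ∈ G.Eqs, f z = 0) ∧ G.h0 z.2.2 ≠ 0} G.p

/-- coordinates adapted to the branch of the leaf through `z` -/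
noncomputable def co (z q : Amb A B) : Amb A B :=
  (G.th (G.b z q.2.2) (q.1 - (G.b z q.2.2).1, q.2.1 - (G.b z q.2.2).2.1), q.2.1 - (G.b z q.2.2).2.1, q.2.2)

def nd (z : Amb A B) : Prop := (G.xi z).IsInvertible

noncomputable def Q (z : Amb A B) (u : A → ℂ) : ℝ := (G.eta z ((G.xi z).inverse u) ((G.xi z).inverse u)).im

/-- the model domain over the branch through `z` -/
def InM (z m : Amb A B) : Prop := G.Q (G.b z m.2.2) m.2.1 < m.1.im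

def MT (z : Amb A B) (T : Set (B → ℂ)) : Set (Amb A B) := {m | m.2.2 ∈ T ∧ G.InM z m}

/-- pseudoconvexity at `z` -/
def Pos (z : Amb A B) : Prop := ∀ a a', G.xi z a' = I • G.xi z a → a ≠ 0 → G.ka a a' < 0

structure OK (R : Amb A B → ℝ) : Prop where
  anE : ∀ f ∈ G.Eqs, AnalyticOnNhd ℂ f univ
  anh : AnalyticOnNhd ℂ G.h0 univ
  pZ : G.p ∈ G.Z
  anb : ∀ z ∈ G.Z, AnalyticAt ℂ (G.b z) z.2.2
  bz : ∀ z ∈ G.Z, G.b z z.2.2 = z
  bt : ∀ z ∈ G.Z, ∀ᶠ τ in 𝓝 z.2.2, (G.b z τ).2.2 = τ ∧ G.b z τ ∈ G.Z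
  bu : ∀ z ∈ G.Z, ∀ᶠ q in 𝓝 z, (∀ f ∈ G.Eqs, f q = 0) → G.b z q.2.2 = q
  anth : ∀ z ∈ G.Z, AnalyticAt ℂ (fun τ => G.th (G.b z τ)) z.2.2
  th0 : ∀ z ∈ G.Z, G.th z (1, 0) ≠ 0
  anxi : ∀ z ∈ G.Z, ∀ a, AnalyticAt ℂ (fun τ => G.xi (G.b z τ) a) z.2.2
  aneta : ∀ z ∈ G.Z, ∀ a a', AnalyticAt ℂ (fun τ => G.eta (G.b z τ) a a') z.2.2
  anbe : ∀ z ∈ G.Z, ∀ a, AnalyticAt ℂ (fun τ => G.be (G.b z τ) a) z.2.2
  symm : ∀ z ∈ G.Z, ∀ a a', G.eta z a a' = G.eta z a' a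
  rel : ∀ z ∈ G.Z, ∀ a a', G.be z a (G.xi z a') = 2 * G.eta z a a' + (G.ka a a' : ℂ)
  skew : ∀ a, G.ka a a = 0
  ndeg : ∀ a, (∀ a', G.ka a a' = 0) → a = 0
  surj : ∀ z ∈ G.Z, ∀ u, ∃ a a', u = G.xi z a + I • G.xi z a'
  anr : ∀ z ∈ G.Z, G.nd z → AnalyticAt ℝ (G.r z) z
  rR : ∀ z ∈ G.Z, G.nd z → ∀ᶠ q in 𝓝 z, G.r z q = 0 → R q = 0
  rexp : ∀ z ∈ G.Z, G.nd z → ∀ ε > 0, ∀ᶠ q in 𝓝 z,
    |G.r z q - ((G.co z q).1.im - G.Q (G.b z q.2.2) (G.co z q).2.1)| ≤ ε * (‖(G.co z q).1‖ + ‖(G.co z q).2.1‖ ^ 2)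
  rgerm : ∀ z ∈ G.Z, G.nd z → ∀ᶠ τ in 𝓝 z.2.2, G.r z =ᶠ[𝓝 (G.b z τ)] G.r (G.b z τ)

/-- cell structure of `{R = 0}` near `z`, transversal to the leaf; `H₁ = {R₁ = 0}` -/
def Cell (R : Amb A B → ℝ) (C : Set (Amb A B)) (R₁ : (B → ℂ) → ℝ) (z : Amb A B) : Prop :=
  ∃ (v : Amb A B) (y : Amb A B → ℝ), AnalyticOnNhd ℝ y univ ∧ (∀ q (s : ℝ), y (q + s • v) = y q) ∧ y z = 0 ∧
    fderiv ℝ (G.r z) z v ≠ 0 ∧ fderiv ℝ (fun τ => y (G.b z τ)) z.2.2 ≠ 0 ∧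
    (∀ᶠ τ in 𝓝 z.2.2, R₁ τ = 0 → y (G.b z τ) = 0) ∧
    ∀ᶠ q in 𝓝 z, R q = 0 → (y q = 0 → G.r z q = 0) ∧ (y q ≠ 0 → q ∉ C ∧ ∃ r' : Amb A B → ℝ,
      AnalyticAt ℝ r' q ∧ fderiv ℝ r' q v ≠ 0 ∧ ∀ᶠ q' in 𝓝 q, (R q' = 0 ↔ r' q' = 0))

/-- the data `(R₁, C₁)` downstairs -/
structure Down (R : Amb A B → ℝ) (C : Set (Amb A B)) (R₁ : (B → ℂ) → ℝ) (C₁ : Set (B → ℂ)) : Prop where
  anR : AnalyticOnNhd ℝ R₁ univ
  neR : ∃ τ, R₁ τ ≠ 0
  clC : IsClosed C₁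
  smC : Small univ C₁
  hC : ∀ τ, G.h0 τ = 0 → τ ∈ C₁
  RC : ∀ τ ∈ C₁, R₁ τ = 0
  good : ∀ z ∈ G.Z, R₁ z.2.2 ≠ 0 → G.nd z ∧ z ∉ C
  tri : ∀ z ∈ G.Z, z.2.2 ∉ C₁ → (G.nd z ∧ z ∉ C) ∨ (G.nd z ∧ G.Cell R C R₁ z) ∨
    ∀ᶠ τ in 𝓝 z.2.2, R₁ τ = 0 → ¬ G.nd (G.b z τ)
  smooth : ∀ τ, τ ∉ C₁ → R₁ τ = 0 → ∃ r₁ : (B → ℂ) → ℝ, AnalyticAt ℝ r₁ τ ∧ fderiv ℝ r₁ τ ≠ 0 ∧
    ∀ᶠ τ' in 𝓝 τ, (R₁ τ' = 0 ↔ r₁ τ' = 0)

variable {E : Type} [NormedAddCommGroup E] [NormedSpace ℂ E]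

/-- a walled section near the point `z` of the leaf -/
structure Datum (X : Set E) (π : E → Amb A B) (z : Amb A B) (W S : Set (Amb A B)) (σ : Amb A B → E) : Prop where
  oW : IsOpen W
  zW : z ∈ W
  anr : AnalyticOnNhd ℝ (G.r z) W
  sm : Small univ S
  cl : ClIn W S
  sec : Sec X π (W ∩ {q | 0 < G.r z q}) σ
  wall : Walled X π W (G.r z) S σ

end Geo

/-- anisotropic scaling -/
noncomputable def sc {A B : Type} (l : ℝ) (m : Amb A B) : Amb A B := (((l ^ 2 : ℝ) : ℂ) * m.1, l • m.2.1, m.2.2)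

/-- a diverging sequence of automorphisms `g j` (inverse `g' j`) with scaling factors and limit map `P` -/
structure Sq (E A B : Type) where
  U : Ultrafilter ℕ
  lam : ℕ → ℝ
  g : ℕ → E → E
  g' : ℕ → E → E
  P : E → Amb A B

namespace Sq
variable {E A B : Type} [NormedAddCommGroup E] [NormedSpace ℂ E] [Fintype A] [Fintype B] (S : Sq E A B)

structure OK (G : Geo A B) (X : Set E) (π : E → Amb A B) : Prop where
  pos : ∀ j, 0 < S.lam j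
  lim : Tendsto S.lam S.U (𝓝 0)
  bih : ∀ j, Bih X X (S.g j) (S.g' j)
  anP : AnalyticOn ℂ S.P X
  conv : TendstoLocallyUniformlyOn (fun j y => π (S.g j y)) S.P S.U X
  div : ∀ y ∈ X, ∀ x ∈ X, ¬ Tendsto (fun j => S.g j y) S.U (𝓝 x)
  eqs : ∀ y ∈ X, ∀ f ∈ G.Eqs, f (S.P y) = 0
  inZ : ∀ y ∈ X, G.h0 (S.P y).2.2 ≠ 0 → S.P y ∈ G.Z

/-- the base coordinate of the limit map -/
def tP (y : E) : B → ℂ := (S.P y).2.2

/-- rescaled coordinates -/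
noncomputable def Ph (G : Geo A B) (π : E → Amb A B) (z : Amb A B) (y : E) (j : ℕ) : Amb A B :=
  sc (S.lam j)⁻¹ (G.co z (π (S.g j y)))

/-- `y` follows the section `σ` and its rescaled coordinates converge to the point `m` of the model -/
def Foll (G : Geo A B) (π : E → Amb A B) (z : Amb A B) (W : Set (Amb A B)) (σ : Amb A B → E) (y : E)
    (m : Amb A B) : Prop :=
  (∀ᶠ j in S.U, π (S.g j y) ∈ W ∩ {q | 0 < G.r z q} ∧ σ (π (S.g j y)) = S.g j y) ∧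
    Tendsto (S.Ph G π z y) S.U (𝓝 m) ∧ G.InM z m

/-- model points, with model coordinate `m` -/
def MOD (G : Geo A B) (X : Set E) (π : E → Amb A B) (y : E) (m : Amb A B) : Prop :=
  y ∈ X ∧ S.P y ∈ G.Z ∧ G.nd (S.P y) ∧ ∃ W N σ, G.Datum X π (S.P y) W N σ ∧ S.Foll G π (S.P y) W σ y m

end Sq

end Geo

end Crest.Agent.R264
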