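import Crest.Agent.R264.Base.Rem
import Crest.Agent.R264.Base.Top
import Crest.Agent.R264.Alg.Cx
import Crest.Agent.R264.Init.Cpx

set_option autoImplicit false
set_option linter.unusedSectionVars false
open Set Filter Topology Metric Complex

namespace Crest.Agent.R264

variable {E F G : Type}
  [NormedAddCommGroup E] [NormedSpace ℂ E] [NormedSpace ℝ E] [IsScalarTower ℝ ℂ E] [FiniteDimensional ℂ E]
  [NormedAddCommGroup F] [NormedSpace ℂ F] [NormedSpace ℝ F] [IsScalarTower ℝ ℂ F] [FiniteDimensional ℂ F]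
  [NormedAddCommGroup G] [NormedSpace ℂ G] [NormedSpace ℝ G] [IsScalarTower ℝ ℂ G] [FiniteDimensional ℂ G]

open Crest.AlgGeometry.Semialg

/-- The semialgebraic set itself is in the class.  See `Blueprint.lean`, section Init. -/
theorem stInit {N n : ℕ} {V U O : Set (Fin N → ℂ)} (hV : IsAlgebraicSet V) (hO : IsOpen O) (hU : U = O ∩ V)
    (hsa : IsSemialgebraic U) (hm : CM n U) : Cls n U := by
  classical
  obtain ⟨I, rfl⟩ := hV
  obtain ⟨k, m, P, Q, hPQ⟩ := hsa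
  set 𝔭 : Ideal (MvPolynomial (Fin N) ℂ) := MvPolynomial.vanishingIdeal ℂ U with h𝔭
  set V' : Set (Fin N → ℂ) := MvPolynomial.zeroLocus ℂ 𝔭 with hV'
  have hUV : U ⊆ V' := MvPolynomial.zeroLocus_vanishingIdeal_le U
  have hU' : U = O ∩ V' := by
    refine Subset.antisymm (fun x hx => ⟨(hU ▸ hx : x ∈ O ∩ _).1, hUV hx⟩) fun x hx => hU ▸ ⟨hx.1, fun p hp => ?_⟩
    exact hx.2 p fun y hy => (hU ▸ hy : y ∈ O ∩ MvPolynomial.zeroLocus ℂ I).2 p hp
  obtain ⟨B, h, f, Γ, hh, hΓ⟩ := ini_graph (ini_prime hm.mfd hm.conn)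
  rw [← h𝔭, ← hV'] at hΓ
  have hh0 : h ≠ 0 := fun h0 => hh (by rw [h0, map_zero]; exact Submodule.zero_mem _)
  obtain ⟨s, hs⟩ := (IsNoetherian.noetherian 𝔭 : 𝔭.FG)
  have hVs : ∀ z, z ∈ V' ↔ ∀ f ∈ (s : Set (MvPolynomial (Fin N) ℂ)), MvPolynomial.eval z f = 0 := fun z => by
    rw [hV', ← hs]
    exact (Set.ext_iff.1 (MvPolynomial.zeroLocus_span (K := ℂ) (s : Set (MvPolynomial (Fin N) ℂ))) z)
  have hVc : IsClosed V' := by
    have : V' = ⋂ f ∈ (s : Set (MvPolynomial (Fin N) ℂ)), {z | MvPolynomial.eval z f = 0} :=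
      Set.ext fun z => by rw [hVs, mem_iInter₂]; rfl
    rw [this]
    exact isClosed_biInter fun f _ =>
      isClosed_eq (continuousOn_univ.1 (ini_an_eval f).continuousOn) continuous_const
  have hD : IsOpen {x : B → ℂ | MvPolynomial.eval x h ≠ 0} :=
    isOpen_ne_fun (continuousOn_univ.1 (ini_an_eval h).continuousOn) continuous_const
  -- the field of definition
  have := countable_closure (s := ∅) countable_empty
  obtain ⟨𝕜₁, -, _, c1⟩ := exists_coeff_field (Subfield.closure ∅) s.countable_toSet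
  obtain ⟨𝕜₂, l2, _, c2⟩ := exists_coeff_field 𝕜₁ (countable_range fun p : Fin N × ℕ => (f p.1).coeff p.2)
  obtain ⟨𝕜, l3, _, Q', hQ'⟩ := ini_descend 𝕜₂ fun p : Fin k × Fin m => Q p.1 p.2
  obtain ⟨Γ', hG⟩ := ini_gra (𝕜 := 𝕜) (j := Subtype.val) hD (fun z hz hz' => (hΓ z hz hz').1) hVs
    (fun f hf m => ⟨l3 (l2 (c1 f hf m).1), l3 (l2 (c1 f hf m).2)⟩) fun z hz hz' =>
      ini_td f (fun i k m => ⟨l3 (c2 _ ⟨(i, k), rfl⟩ m).1, l3 (c2 _ ⟨(i, k), rfl⟩ m).2⟩)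
        (fun i => ((hΓ z hz hz').2 i).1) fun i => ((hΓ z hz hz').2 i).2
  obtain ⟨R₁, C₁, hR₁, a1, a2, a3, a4, a5⟩ := hG.signs (Subtype.val_injective.sumMap Subtype.val_injective) Q'
  have hC : Thin (rc ⁻¹' C₁ ∪ {x : B → ℂ | MvPolynomial.eval x h = 0}) :=
    Thin.union ⟨𝕜, inferInstance, C₁, a1, fun q hq => by simpa [two_mul] using a2 q hq, rfl⟩ (thin_zero hh0)
  set C : Set (B → ℂ) := rc ⁻¹' C₁ ∪ {x : B → ℂ | MvPolynomial.eval x h = 0} with hCdef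
  obtain ⟨RC, hRC0, hRC⟩ := hC.exists_poly
  set R := MvPolynomial.map 𝕜.subtype R₁ * RC with hRdef
  have hR : ∀ x, pev R x = 0 ↔ MvPolynomial.aeval (rc x) R₁ = 0 ∨ x ∈ C := fun x => by
    rw [← hRC, aeval_eq_eval_map, hRdef, pev, map_mul, mul_eq_zero]; rfl
  have hR0 : R ≠ 0 := mul_ne_zero
    (fun h0 => hR₁ (MvPolynomial.map_injective _ 𝕜.subtype.injective (by rw [h0, map_zero]))) hRC0
  have hCD : ∀ x, x ∉ C → MvPolynomial.eval x h ≠ 0 := fun x hx h0 => hx (Or.inr h0)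
  let πL : (Fin N → ℂ) →L[ℂ] (B → ℂ) := ContinuousLinearMap.pi fun i => ContinuousLinearMap.proj i.1
  have hπ : AnalyticOnNhd ℂ (fun z : Fin N → ℂ => z ∘ (Subtype.val : B → Fin N)) univ := πL.analyticOnNhd univ
  have hπc : Continuous fun z : Fin N → ℂ => z ∘ (Subtype.val : B → Fin N) := πL.continuous
  obtain ⟨L, hL⟩ := exists_rcL (Fin N)
  obtain ⟨L', hL'⟩ := exists_rcL B
  have hrc : ∀ z : Fin N → ℂ, Tendsto rc (𝓝 z) (𝓝 (rc z)) := fun z => by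
    have := L.continuous.tendsto z
    rwa [hL, funext hL] at this
  -- no boundary points over `{R ≠ 0}`
  have hA : ∀ z ∈ V', pev R (z ∘ Subtype.val) ≠ 0 → z ∈ closure U → z ∈ U := by
    intro z hz hz0 hzU
    have hz1 := not_or.1 (mt (hR _).2 hz0)
    refine ini_sa (S := univ) hPQ (by rwa [inter_univ]) fun i j hij => ?_
    rw [pev, ← hQ' (i, j)]
    refine a4 _ ⟨z, ⟨hz, hCD _ hz1.2⟩, rfl⟩ (by rw [rc_comp]; exact hz1.1) (i, j) ((hrc z).frequently ?_)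
    refine (hij.and_eventually (hπc.continuousAt.eventually (hD.mem_nhds (hCD _ hz1.2)))).mono fun y hy => ?_
    exact ⟨⟨y, ⟨hUV hy.1.1.1, hy.2⟩, rfl⟩, by rw [hQ']; exact hy.1.2⟩
  have hB : ∀ z ∈ V', z ∘ Subtype.val ∉ C → pev R (z ∘ Subtype.val) = 0 →
      z ∈ closure (U ∩ {y | pev R (y ∘ Subtype.val) = 0}) → z ∈ U := by
    intro z hz hzC hz0 hzU
    refine ini_sa hPQ hzU fun i j hij => ?_
    rw [pev, ← hQ' (i, j)]
    refine a5 _ ⟨z, ⟨hz, hCD _ hzC⟩, rfl⟩ (by rw [rc_comp]; exact fun hc => hzC (Or.inl hc))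
      (by rw [rc_comp]; exact ((hR _).1 hz0).resolve_right hzC) (i, j) ((hrc z).frequently ?_)
    refine (hij.and_eventually (hπc.continuousAt.eventually (hC.isClosed.isOpen_compl.mem_nhds hzC))).mono
      fun y hy => ?_
    exact ⟨⟨y, ⟨hUV hy.1.1.1, hCD _ hy.2⟩, rfl⟩, by rw [rc_comp]; exact ((hR _).1 hy.1.1.2).resolve_right hy.2,
      by rw [hQ']; exact hy.1.2⟩
  have hS : ∀ q, q ∉ C → pev R q = 0 → ∃ r : (B → ℂ) → ℝ, AnalyticAt ℝ r q ∧ fderiv ℝ r q ≠ 0 ∧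
      ∀ᶠ q' in 𝓝 q, (pev R q' = 0 ↔ r q' = 0) := by
    intro q hqC hq
    obtain ⟨r, h1, h2, h3⟩ := a3 (rc q) (fun hc => hqC (Or.inl hc)) (((hR _).1 hq).resolve_right hqC)
    rw [← hL'] at h1 h2 h3
    refine ⟨r ∘ L', h1.comp (L'.analyticAt q), fun h0 => h2 ?_, ?_⟩
    · rw [L'.comp_right_fderiv] at h0
      ext1 v
      have := congrArg (fun A : (B → ℂ) →L[ℝ] ℝ => A (L'.symm v)) h0
      simpa using this
    · filter_upwards [L'.continuous.continuousAt.eventually h3, hC.isClosed.isOpen_compl.mem_nhds hqC] with x h4 h5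
      rw [hR, or_iff_left h5, ← hL']
      exact h4
  obtain ⟨x₀, hx₀, hx₀h⟩ : ∃ z ∈ U, MvPolynomial.eval (z ∘ Subtype.val) h ≠ 0 := by
    by_contra! hn
    exact hh fun z hz => (MvPolynomial.aeval_rename Subtype.val z h).trans (hn z hz)
  refine ⟨B, inferInstance, fun z => z ∘ Subtype.val, R, C, ?_, hC, (hπ.mono (subset_univ _)).analyticOn,
    πL.lipschitz.isBounded_image hm.bdd, analytic_pev R, hC.isClosed, hC.small, ?_, ?_, ?_⟩
  · rw [← Module.finrank_fintype_fun_eq_card ℂ]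
    exact ini_dim hO hU' hm.mfd hπ hD (fun z hz hz' => (hΓ z hz hz').1) ⟨x₀, hx₀, hx₀h⟩
  · exact ini_pp hVc hO hU' hm.bdd hπc
      (fun z hz hz' => (hΓ z hz (hCD _ fun hc => hz' ((hR _).2 (Or.inr hc)))).1) hA
  · exact ini_lt hVc hO hU' hm.bdd hπc (fun z hz hz' => (hΓ z hz (hCD _ hz')).1) hA hB hS
  · exact ini_ex hO hU' hx₀ (hΓ x₀ (hUV hx₀) hx₀h).1 (dense_ne (analytic_pev R) (pev_ne hR0))

end Crest.Agent.R264
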