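import Crest.Agent.R264.Base.Rem
import Crest.Agent.R264.Base.One
import Crest.Agent.R264.Alg.GS
import Crest.Agent.R264.Sm.Mfd

set_option autoImplicit false
set_option linter.unusedSectionVars false
open Set Filter Topology Metric Complex

namespace Crest.Agent.R264

variable {E F G : Type}
  [NormedAddCommGroup E] [NormedSpace ℂ E] [NormedSpace ℝ E] [IsScalarTower ℝ ℂ E] [FiniteDimensional ℂ E]
  [NormedAddCommGroup F] [NormedSpace ℂ F] [NormedSpace ℝ F] [IsScalarTower ℝ ℂ F] [FiniteDimensional ℂ F]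
  [NormedAddCommGroup G] [NormedSpace ℂ G] [NormedSpace ℝ G] [IsScalarTower ℝ ℂ G] [FiniteDimensional ℂ G]

open Crest.AlgGeometry.Semialg

/-- `U` is a manifold.  See `Blueprint.lean`, section Sm. -/
theorem sm_mfd {N : ℕ} {V U O : Set (Fin N → ℂ)} (hV : IsAlgebraicSet V) (hO : IsOpen O) (hU : U = O ∩ V)
    (hc : IsConnected U) (hb : Bornology.IsBounded U) (hL : Coc U) : ∃ n, Mfd n U := by
  obtain ⟨I, rfl⟩ := hV
  obtain ⟨q, q1, q2⟩ := sm_gen hO hU hc.nonempty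
  have q3 := sm_an_aeval q
  refine sm_glue hc (sm_abs hc.isPreconnected hL (fun s hs => ?_) (q3.analyticOn.mono (subset_univ _))
    ((hb.isCompact_closure.bddAbove_image (q3.continuousOn.mono (subset_univ _)).norm).mono
      (image_mono subset_closure)) q1 q2)
  obtain ⟨N, n1, c, c1, c2⟩ := sm_sch I s O (hO.mem_nhds (hU.subset hs).1)
  rw [inter_comm, ← hU] at c2
  exact ⟨N, n1, c, c1, fun f f1 f2 f3 z hz => c2 f f1 f2 f3 z ⟨(hU.subset hz.1).2, hz.2⟩⟩

/-- compactness of small `cd`-balls: `norm_le_cd`, `V` closed, a uniform distance from `K` to `Oᶜ`, `Bih.cd_eq`,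
`cd_continuousOn` -/
theorem sm_cm {N n : ℕ} {V U O : Set (Fin N → ℂ)} (hV : IsAlgebraicSet V) (hO : IsOpen O) (hU : U = O ∩ V)
    (hc : IsConnected U) (hb : Bornology.IsBounded U) (hL : Coc U) (hm : Mfd n U) : CM n U := by
  obtain ⟨I, rfl⟩ := hV
  obtain ⟨K, k1, k2, k3⟩ := hL
  obtain ⟨δ, d1, d2⟩ := k1.exists_cthickening_subset_open hO fun x hx => (hU.subset (k2 hx)).1
  obtain ⟨C, c1, c2⟩ := norm_le_cd hb
  have h1 : ∀ x ∈ K, IsCompact {y | y ∈ U ∧ cd U x y ≤ δ / C} := by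
    intro x hx
    have t1 : IsCompact (closedBall x δ ∩ MvPolynomial.zeroLocus ℂ I) :=
      (isCompact_closedBall x δ).inter_right (sm_closed I)
    have t2 : closedBall x δ ∩ MvPolynomial.zeroLocus ℂ I ⊆ U := fun y hy =>
      hU.symm.subset ⟨d2 (closedBall_subset_cthickening hx δ hy.1), hy.2⟩
    have t3 : ContinuousOn (fun y => cd U x y) (closedBall x δ ∩ MvPolynomial.zeroLocus ℂ I) :=
      (cd_continuousOn hm).comp (f := fun y => (x, y)) (Continuous.prodMk_right x).continuousOn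
        fun y hy => ⟨k2 hx, t2 hy⟩
    convert t1.of_isClosed_subset (t3.preimage_isClosed_of_isClosed t1.isClosed (isClosed_Iic (a := δ / C)))
      inter_subset_left using 1
    refine Subset.antisymm (fun y hy => ⟨⟨?_, (hU.subset hy.1).2⟩, hy.2⟩) fun y hy => ⟨t2 hy.1, hy.2⟩
    rw [mem_closedBall', dist_eq_norm]
    exact (c2 x (k2 hx) y hy.1).trans ((le_div_iff₀' c1).1 hy.2)
  refine ⟨hm, hc, hb, δ / C, div_pos d1 c1, fun x hx => ?_⟩
  obtain ⟨f, g, b, hf⟩ := k3 x hx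
  convert (h1 _ hf).image_of_continuousOn (b.ag.continuousOn.mono fun y hy => hy.1) using 1
  refine Subset.antisymm (fun y hy => ⟨f y, ⟨b.mf hy.1, (b.cd_eq hx hy.1).trans_le hy.2⟩, b.gf y hy.1⟩) ?_
  rintro _ ⟨y, hy, rfl⟩
  refine ⟨b.mg hy.1, ?_⟩
  rw [← b.cd_eq hx (b.mg hy.1), b.fg y hy.1]
  exact hy.2

/-- extend `γ` by the identity off `U`; `R266.osgood`; a compact `K` with `Γ K = U` (`U` is locally compact, the
quotient map is open); `Γ` is countable since `U` is σ-compact and nonempty -/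
theorem sm_lat {N : ℕ} {V U O : Set (Fin N → ℂ)} (hV : IsAlgebraicSet V) (hO : IsOpen O) (hU : U = O ∩ V)
    (hc : IsConnected U) (Γ : Subgroup (Equiv.Perm U))
    (hΓ : ∀ γ ∈ Γ, IsHolomorphicMap U (fun y : U => ((γ y : U) : Fin N → ℂ)))
    (hpd : ProperlyDiscontinuousSMul Γ U) (hcpt : CompactSpace (Quotient (MulAction.orbitRel Γ U))) : Lat U := by
  classical
  obtain ⟨I, rfl⟩ := hV
  have : LocallyCompactSpace U := IsLocallyClosed.locallyCompactSpace
    (hU ▸ hO.isLocallyClosed.inter (sm_closed I).isLocallyClosed)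
  let act : Γ → (Fin N → ℂ) → Fin N → ℂ := fun γ x => if h : x ∈ U then (γ • (⟨x, h⟩ : U) : U) else x
  have h1 : ∀ γ (y : U), act γ y = (γ • y : U) := fun γ y => dif_pos y.2
  have h2 : ∀ γ, AnalyticOn ℂ (act γ) U := fun γ => anOn_iff.2 fun x hx => by
    obtain ⟨W, w1, w2, Φ, w3, w4⟩ := hΓ γ γ.2 ⟨x, hx⟩
    refine ⟨Φ, R266.osgood w1 w3 x w2, ?_⟩
    filter_upwards [inter_mem_nhdsWithin U (w1.mem_nhds w2)] with y hy
    exact (h1 γ ⟨y, hy.1⟩).trans (w4 ⟨y, hy.1⟩ hy.2)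
  have : ContinuousConstSMul Γ U := ⟨fun γ => continuous_induced_rng.2
    ((h2 γ).continuousOn.domRestrict.congr fun y => h1 γ y)⟩
  have : Countable Γ := by
    obtain ⟨y, hy⟩ := hc.nonempty
    refine countable_univ_iff.1 ((countable_iUnion fun n => (hpd.finite_disjoint_inter_image
      (isCompact_singleton (x := ⟨y, hy⟩)) (isCompact_compactCovering U n)).countable).mono fun γ _ => ?_)
    obtain ⟨n, hn⟩ := exists_mem_compactCovering (γ • (⟨y, hy⟩ : U))
    exact mem_iUnion.2 ⟨n, _, mem_image_of_mem _ rfl, hn⟩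
  refine ⟨Γ, inferInstance, inferInstance, act, fun γ => ⟨h2 γ, fun x hx => h1 γ ⟨x, hx⟩ ▸ Subtype.prop _⟩,
    fun x hx => by rw [h1 1 ⟨x, hx⟩, one_smul], fun γ γ' x hx => by
      rw [h1 _ ⟨x, hx⟩, h1 _ ⟨x, hx⟩, h1, mul_smul], ?_, fun K k1 k2 => ?_⟩
  · choose K k1 k2 using fun y : U => exists_compact_mem_nhds y
    have q := MulAction.isOpenQuotientMap_quotientMk (Γ := Γ) (T := U)
    obtain ⟨T, hT⟩ := isCompact_univ.elim_finite_subcover
      (fun y : U => Quotient.mk (MulAction.orbitRel Γ U) '' interior (K y))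
      (fun y => q.isOpenMap _ isOpen_interior) fun z _ => by
        obtain ⟨y, rfl⟩ := q.surjective z
        exact mem_iUnion.2 ⟨y, y, mem_interior_iff_mem_nhds.2 (k2 y), rfl⟩
    refine ⟨Subtype.val '' ⋃ y ∈ T, K y, (T.isCompact_biUnion fun y _ => k1 y).image continuous_subtype_val,
      Subtype.coe_image_subset _ _, fun x hx => ?_⟩
    obtain ⟨y, hy, z, z1, z2⟩ := mem_iUnion₂.1 (hT (mem_univ (Quotient.mk (MulAction.orbitRel Γ U) ⟨x, hx⟩)))
    obtain ⟨γ, hγ⟩ := MulAction.orbitRel_apply.1 (Quotient.exact z2)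
    exact ⟨γ, z, mem_biUnion hy (interior_subset z1), (congrArg Subtype.val hγ).symm.trans (h1 γ ⟨x, hx⟩).symm⟩
  · have k3 : IsCompact (Subtype.val ⁻¹' K : Set U) :=
      Topology.IsInducing.subtypeVal.isCompact_preimage' k1 (by rwa [Subtype.range_coe])
    refine (hpd.finite_disjoint_inter_image k3 k3).subset ?_
    rintro γ ⟨_, ⟨x, hx, rfl⟩, hx'⟩
    exact ⟨_, ⟨⟨x, k2 hx⟩, hx, rfl⟩, (h1 γ ⟨x, k2 hx⟩ ▸ hx' :)⟩

end Crest.Agent.R264
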