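import Crest.Agent.R264.MT.Abs
import Crest.Agent.R264.MT.Haus
import Crest.Agent.R264.MT.Kap

set_option autoImplicit false
set_option linter.unusedSectionVars false
open Set Filter Topology Metric Complex

namespace Crest.Agent.R264

variable {E F G : Type}
  [NormedAddCommGroup E] [NormedSpace ℂ E] [NormedSpace ℝ E] [IsScalarTower ℝ ℂ E] [FiniteDimensional ℂ E]
  [NormedAddCommGroup F] [NormedSpace ℂ F] [NormedSpace ℝ F] [IsScalarTower ℝ ℂ F] [FiniteDimensional ℂ F]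
  [NormedAddCommGroup G] [NormedSpace ℂ G] [NormedSpace ℝ G] [IsScalarTower ℝ ℂ G] [FiniteDimensional ℂ G]

/-- Unimodularity by mass transport.  See `Blueprint.lean`, section MT. -/
theorem unimodular {n : ℕ} {X : Set E} (hX : CM n X) (hL : Lat X) {L : Type} [LieRing L] [LieAlgebra ℝ L]
    [FiniteDimensional ℝ L] {ι : L →ₗ[ℝ] (E → E)} (h : LieRep X ι)
    (hi : ∀ f g, Bih X X f g → ∀ a, push X X f g (ι a) ∈ range ι) (a : L) :
    LinearMap.trace ℝ L (LieAlgebra.ad ℝ L a) = 0 := by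
  classical
  obtain ⟨Γ, _, _, act, hact, h1, hmul, ⟨K, hK, hKX, hcov⟩, hpd⟩ := hL
  obtain ⟨ε, hε, hcpt⟩ := hX.cpt
  borelize E
  obtain ⟨Ω, hΩ0, hΩl, hΩp⟩ := MT.exists_inv_measure hX
  let q : (Fin (Module.finrank ℝ L) → ℝ) ≃ₗ[ℝ] L := (Module.finBasis ℝ L).equivFun.symm
  let ι' : (Fin (Module.finrank ℝ L) → ℝ) →ₗ[ℝ] (E → E) := ι ∘ₗ q
  have hg : ∀ c, Gen X (ι' c) := fun c => h.gen _
  have hinj : Function.Injective ι' := h.inj.comp q.injective
  have bγ : ∀ γ, Bih X X (act γ) (act γ⁻¹) := fun γ =>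
    ⟨(hact γ).1, (hact _).1, (hact γ).2, (hact _).2, fun x hx => by rw [← hmul _ _ x hx, inv_mul_cancel, h1 x hx],
      fun x hx => by rw [← hmul _ _ x hx, mul_inv_cancel, h1 x hx]⟩
  have bφ : ∀ c, Bih X X (fl X (ι' c) 1) (fl X (ι' c) (-1)) := fun c => (hg c).isFlow.toIsGrp.bih 1
  have hA : ∀ f g, Bih X X f g → ∃ A : (Fin (Module.finrank ℝ L) → ℝ) →ₗ[ℝ] (Fin (Module.finrank ℝ L) → ℝ),
      ∀ c, ι' (A c) = push X X f g (ι' c) := by
    intro f g hb
    have : ∀ c, ∃ c', ι' c' = push X X f g (ι' c) := fun c => by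
      obtain ⟨a', ha'⟩ := hi f g hb (q c)
      exact ⟨q.symm a', by simpa [ι'] using ha'⟩
    choose A hA using this
    refine ⟨⟨⟨A, fun c c' => hinj ?_⟩, fun r c => hinj ?_⟩, hA⟩
    · rw [map_add, hA, hA, hA, map_add, push_add]
    · simp only [RingHom.id_apply]
      rw [map_smul, hA, hA, map_smul, push_rsmul]
  let τ : (Fin (Module.finrank ℝ L) → ℝ) →ₗ[ℝ] ℝ :=
    ⟨⟨fun c => LinearMap.trace ℝ L (LieAlgebra.ad ℝ L (q c)), fun c c' => by simp only [map_add]⟩,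
      fun r c => by simp only [map_smul, RingHom.id_apply]⟩
  have hKc : IsCompact (Subtype.val ⁻¹' K : Set X) :=
    Topology.IsInducing.subtypeVal.isCompact_preimage' hK (by simpa using hKX)
  have hcov' : ∀ x : X, ∃ γ, (bγ γ).mf.restrict _ X X x ∈ (Subtype.val ⁻¹' K : Set X) := fun x => hcov x x.2
  have key : τ = 0 := by
    refine MT.mass_transport (X := X) (Γ := Γ) MeasureTheory.volume (Ω := Ω)
      (act := fun γ => (bγ γ).mf.restrict _ X X) (K := Subtype.val ⁻¹' K)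
      (e := fun c => (bφ c).mf.restrict _ X X) (κ := {p | MT.Kap X ε p.1 (ι' p.2)})
      (fun γ => hΩp _ _ (bγ γ)) (fun x => Subtype.ext (h1 x x.2)) (fun γ γ' x => Subtype.ext (hmul γ γ' x x.2))
      hKc.measurableSet hcov' (fun x => ?_) ?_ hKc.measure_lt_top.ne ?_ (fun c => hΩp _ _ (bφ c))
      (fun c x => Subtype.ext ?_) (MT.Kap_closed hX hg ε).measurableSet (fun x c => ?_) (fun γ => ?_) (fun c => ?_)
      (fun x => ?_) (fun x => ?_)
    · refine (hpd (insert (x : E) K) (hK.insert _) (insert_subset x.2 hKX)).subset fun γ hγ => ?_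
      exact ⟨act γ x, ⟨x, mem_insert _ _, rfl⟩, mem_insert_of_mem _ hγ⟩
    · intro h0
      apply hΩ0
      rw [← MeasureTheory.Measure.measure_univ_eq_zero]
      refine MeasureTheory.measure_mono_null
        (t := ⋃ γ, (bγ γ).mf.restrict _ X X ⁻¹' (Subtype.val ⁻¹' K : Set X)) (fun x _ => mem_iUnion.2 (hcov' x)) ?_
      refine MeasureTheory.measure_iUnion_null fun γ => ?_
      rw [(hΩp _ _ (bγ γ)).measure_preimage hKc.measurableSet.nullMeasurableSet, h0]
    · exact ((MT.exp_cont' hX hg).subtype_mk _).measurable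
    · change fl X (ι' c) 1 (fl X (ι' (-c)) 1 x) = x
      rw [map_neg, MT.fl_neg (hg c) _ x.2]
      exact (bφ c).fg x x.2
    · change MT.Kap X ε x (ι' (-c)) ↔ MT.Kap X ε x (ι' c)
      rw [map_neg, MT.Kap_neg (hg c)]
    · obtain ⟨A, hA1⟩ := hA _ _ (bγ γ)
      obtain ⟨A', hA2⟩ := hA _ _ (bγ γ).symm
      have hc : A' ∘ₗ A = LinearMap.id := by
        refine LinearMap.ext fun c => hinj ?_
        change ι' (A' (A c)) = ι' c
        rw [hA2, hA1, push_trans (bγ γ) (bγ γ).symm (hg c).vf, push_id (bγ γ).gf (bγ γ).gf (hg c).vf (hg c).off]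
      refine ⟨A, fun h0 => ?_, fun x c => Subtype.ext ?_, fun x c => ?_⟩
      · have := congrArg LinearMap.det hc
        rw [LinearMap.det_comp, h0, mul_zero, LinearMap.det_id] at this
        exact zero_ne_one this
      · change act γ (fl X (ι' c) 1 x) = fl X (ι' (A c)) 1 (act γ x)
        rw [hA1, ((hg c).pushf hX.mfd (bγ γ)).2 1 _ ((bγ γ).mf x.2), (bγ γ).gf x x.2]
      · change MT.Kap X ε (act γ x) (ι' (A c)) ↔ MT.Kap X ε x (ι' c)
        rw [hA1, MT.Kap_push hX.mfd (bγ γ) (hg c) x.2]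
    · obtain ⟨Ad, hAd, hdet, -⟩ := h.Ad hX.mfd (q c)
      have hB : ∀ b, ι' (((q.symm : L →ₗ[ℝ] _) ∘ₗ Ad 1 ∘ₗ (q : _ →ₗ[ℝ] L)) b) =
          push X X (fl X (ι' c) 1) (fl X (ι' c) (-1)) (ι' b) := fun b => by
        simpa [ι'] using hAd 1 (q b)
      refine ⟨(q.symm : L →ₗ[ℝ] _) ∘ₗ Ad 1 ∘ₗ (q : _ →ₗ[ℝ] L), ?_, hinj ?_, fun x b => ?_⟩
      · refine (LinearMap.det_conj (Ad 1) q.symm).trans ?_
        rw [hdet, one_mul]
        rfl
      · rw [hB]
        ext y
        by_cases hy : y ∈ X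
        · have hy' := (bφ c).mg hy
          conv_lhs => rw [← (bφ c).fg y hy]
          rw [push_apply (bφ c) _ hy', (hg c).Dv_fl_self hX.mfd hy', (bφ c).fg y hy]
        · rw [(hg c).off y hy, push, indicator_of_notMem hy]
      · change MT.Kap X ε (fl X (ι' c) 1 x) (ι' _) ↔ MT.Kap X ε x (ι' b)
        rw [hB, MT.Kap_push hX.mfd (bφ c) (hg b) x.2]
    · exact (MeasureTheory.Measure.measure_pos_of_mem_nhds _ (MT.Kap_nhds hX.mfd hg (hcpt x x.2))).ne'
    · exact (MT.Kap_bounded hX hg hinj hε x.2).measure_lt_top.ne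
  have := LinearMap.congr_fun key (q.symm a)
  simpa [τ] using this

end Crest.Agent.R264
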