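import Crest.Agent.R264.Lie.Kos
import Crest.Agent.R264.JA
import Crest.Agent.R264.MT
import Crest.Agent.R264.Split.Prod

set_option autoImplicit false
set_option linter.unusedSectionVars false
open Set Filter Topology Metric Complex

namespace Crest.Agent.R264

variable {E F G : Type}
  [NormedAddCommGroup E] [NormedSpace ℂ E] [NormedSpace ℝ E] [IsScalarTower ℝ ℂ E] [FiniteDimensional ℂ E]
  [NormedAddCommGroup F] [NormedSpace ℂ F] [NormedSpace ℝ F] [IsScalarTower ℝ ℂ F] [FiniteDimensional ℂ F]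
  [NormedAddCommGroup G] [NormedSpace ℂ G] [NormedSpace ℝ G] [IsScalarTower ℝ ℂ G] [FiniteDimensional ℂ G]

/-- The splitting, given the Lie algebra.  See `Blueprint.lean`, section Split. -/
theorem split_of {n : ℕ} {X : Set E} (hX : CM n X) (hc : Coc X) {L : Type} [LieRing L] [LieAlgebra ℝ L]
    [FiniteDimensional ℝ L] {ι : L →ₗ[ℝ] (E → E)} (h : LieRep X ι) (hcx : CxVal X (range ι))
    (hmax : ∀ S : Submodule ℝ (E → E), (∀ W ∈ S, Gen X W) → CxVal X S → ∀ W ∈ S, W ∈ range ι)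
    (hi : ∀ f g, Bih X X f g → ∀ a, push X X f g (ι a) ∈ range ι) (hZ : ∀ x ∈ X, ∃ Z, Car (evx ι x) Z)
    {r : ℕ} (hr : ∀ x ∈ X, Module.finrank ℝ (LinearMap.range (evx ι x)) = 2 * r) :
    ∃ (s : ℕ) (D : Set (Fin r → ℂ)) (Y : Set E) (f : E → (Fin r → ℂ) × E) (g : (Fin r → ℂ) × E → E),
      IsOpen D ∧ Sym r D ∧ CM s Y ∧ Coc Y ∧ Rigid Y ∧ Bih X (D ×ˢ Y) f g := by
  have hM := hX.mfd
  obtain ⟨x₀, hx₀⟩ := hX.conn.nonempty
  obtain ⟨Z, hZ₀⟩ := hZ x₀ hx₀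
  obtain ⟨𝔡, c, f⟩ := exists_fr h hcx hx₀ hZ₀ (hr x₀ hx₀)
  obtain ⟨cφ, g, d⟩ := f.disc hX h hcx hx₀ hr
  obtain ⟨τ, t⟩ := f.th hX h hcx hx₀ hr cφ d
  obtain ⟨s, D, k, oD, bD, mY, b⟩ := t.prod f hcx hX h d hi
  set ρ := fun z => g (0, z) with hρ
  have sY : ρ '' X ⊆ X := d.maps0.image_subset
  have cY : CM s (ρ '' X) := hX.retract d.an0 d.maps0 (fun x hx => d.idem sp_b0 hx) mY
  have mD : Mfd r D := by simpa using Mfd.of_isOpen oD
  have cP := hX.bih b (bD.prod (hX.bdd.subset sY))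
  have cD : CM r D := cP.fst mD
  have mτ : MapsTo τ X D := fun z hz => (b.mf hz).1
  have DΘ : ∀ z ∈ X, ∀ v ∈ Tan X z, Dv X (fun z => (τ z, ρ z)) z v = (Dv X τ z v, Dv X ρ z v) := fun z hz v hv =>
    Dv_prod (t.an.differentiableOn z hz) (d.an0.differentiableOn z hz) hv
  have sτ : ∀ u ∈ D, ∃ z ∈ X, τ z = u := fun u hu =>
    ⟨_, b.mg (mk_mem_prod hu ⟨x₀, hx₀, rfl⟩), congrArg Prod.fst (b.fg _ (mk_mem_prod hu ⟨x₀, hx₀, rfl⟩))⟩
  have rel : ∀ a, ∃ W, Gen D W ∧ ∀ z ∈ X, W (τ z) = der X (ι a) τ z := fun a => by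
    obtain ⟨W, W', h1, -, h2, -⟩ := gen_prod cD cY ((h.gen a).pushf hM b).1
    refine ⟨W, h1, fun z hz => ?_⟩
    have h3 := push_apply b (ι a) hz
    rw [h2 _ (mτ hz) _ ⟨z, hz, rfl⟩, DΘ z hz _ ((h.gen a).vf.tan z hz)] at h3
    exact congrArg Prod.fst h3
  choose W gW hW using rel
  have hv : ∀ z ∈ X, ∀ v, ∃ a, W a (τ z) = v := fun z hz v => by
    obtain ⟨a, ha⟩ := f.val hcx hz v
    exact ⟨a, by rw [hW a z hz, der, ha, t.dτ v z hz]⟩
  refine ⟨s, D, ρ '' X, _, k, oD, ⟨cD, fun u hu v _ => ?_, fun u hu => ?_⟩, cY, ?_, fun S hS hS' => ?_, b⟩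
  · obtain ⟨z, hz, rfl⟩ := sτ u hu
    obtain ⟨a, ha⟩ := hv z hz v
    exact ⟨_, gW a, ha⟩
  · obtain ⟨z, hz, rfl⟩ := sτ u hu
    obtain ⟨Z', z0, -, z2⟩ := hZ z hz
    have h0 : W Z' (τ z) = 0 := by rw [hW _ z hz, der, show ι Z' z = 0 from z0, map_zero]
    refine ⟨_, gW Z', h0, fun v _ => ?_⟩
    obtain ⟨a, rfl⟩ := hv z hz v
    have h1 := br_related hM mD t.an mτ (h.gen Z').vf (h.gen a).vf (gW Z').vf (gW a).vf (hW Z') (hW a) z hz
    rw [br_apply _ _ hu, h0, map_zero, zero_sub, ← h.lie, der, show ι ⁅Z', a⁆ z = -(I • ι a z) from z2 a, map_neg,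
      map_smul, neg_inj] at h1
    rw [h1, hW a z hz, der]
  · obtain ⟨K, cK, sK, hK⟩ := hc
    have key : ∀ γ γ' : E → E, Bih X X γ γ' → ∀ x ∈ X, ρ (γ (ρ x)) = ρ (γ x) := fun γ γ' e x hx => by
      have a1 : AnalyticOn ℂ (fun x => ρ (γ x)) X := d.an0.comp e.af e.mf
      refine d.wt0 a1 (((h.gen Z).inv_iff a1).2 fun y hy => ?_) sp_b0 hx
      obtain ⟨a, ha⟩ := hi _ _ e Z
      rw [der, Dv_comp (e.af.differentiableOn y hy) (d.an0.differentiableOn _ (e.mf hy))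
        (eventually_mem_nhdsWithin.mono e.mf) ((h.gen Z).vf.tan y hy), ← push_apply e _ hy, ← ha]
      exact t.kill a _ (e.mf hy)
    refine ⟨ρ '' K, cK.image_of_continuousOn (d.an0.continuousOn.mono sK), image_mono sK, fun y hy => ?_⟩
    obtain ⟨γ, γ', e, h1⟩ := hK y (sY hy)
    refine ⟨fun x => ρ (γ x), fun x => ρ (γ' x), ⟨(d.an0.comp e.af e.mf).mono sY, (d.an0.comp e.ag e.mg).mono sY,
      fun x hx => ⟨_, e.mf (sY hx), rfl⟩, fun x hx => ⟨_, e.mg (sY hx), rfl⟩, ?_, ?_⟩, _, h1, rfl⟩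
    · rintro _ ⟨x, hx, rfl⟩
      rw [key _ _ e.symm _ (e.mf (d.maps0 hx)), e.gf _ (d.maps0 hx)]
      exact d.idem sp_b0 hx
    · rintro _ ⟨x, hx, rfl⟩
      rw [key _ _ e _ (e.mg (d.maps0 hx)), e.fg _ (d.maps0 hx)]
      exact d.idem sp_b0 hx
  · let j : (E → E) → (Fin r → ℂ) × E → (Fin r → ℂ) × E := fun V =>
      (D ×ˢ (ρ '' X)).indicator fun p => ((0 : (Fin r → ℂ) → Fin r → ℂ) p.1, V p.2)
    have hj : ∀ V, ∀ x ∈ X, j V (τ x, ρ x) = (0, V (ρ x)) := fun V x hx => indicator_of_mem (b.mf hx) _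
    let l : (E → E) →ₗ[ℝ] (E → E) :=
      { toFun := fun V => X.indicator fun x => Dv (D ×ˢ (ρ '' X)) k (τ x, ρ x) (0, V (ρ x))
        map_add' := fun V V' => by
          rw [← indicator_add']
          congr 1
          ext x
          rw [Pi.add_apply, Pi.add_apply, ← map_add, Prod.mk_add_mk, add_zero]
        map_smul' := fun q V => by
          ext x
          by_cases hx : x ∈ X
          · simp only [Pi.smul_apply, indicator_of_mem hx, RingHom.id_apply, sp_rs, ← map_smul, Prod.smul_mk, smul_zero]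
          · simp only [Pi.smul_apply, indicator_of_notMem hx, smul_zero] }
    have hl : ∀ V, ∀ x ∈ X, l V x = Dv (D ×ˢ (ρ '' X)) k (τ x, ρ x) (0, V (ρ x)) := fun V x hx =>
      indicator_of_mem hx fun x => Dv (D ×ˢ (ρ '' X)) k (τ x, ρ x) (0, V (ρ x))
    have gj : ∀ V ∈ S, Gen (D ×ˢ (ρ '' X)) (j V) := fun V hV => gen_prod_mk (gen_zero D) (hS V hV)
    refine eq_bot_iff.2 fun V hV => ?_
    obtain ⟨a, ha⟩ := hmax (S.map l) (by
      rintro _ ⟨V, hV, rfl⟩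
      have h1 : l V = push (D ×ˢ (ρ '' X)) X k (fun z => (τ z, ρ z)) (j V) :=
        indicator_congr fun x hx => by simp only [hj V x hx]
      rw [h1]
      exact ((gj V hV).pushf cP.mfd b.symm).1) (by
      rintro x hx _ ⟨V, hV, rfl⟩
      obtain ⟨V', hV', e⟩ := hS' _ ⟨x, hx, rfl⟩ V hV
      exact ⟨_, ⟨V', hV', rfl⟩, by rw [hl _ x hx, hl _ x hx, e, ← map_smul, Prod.smul_mk, smul_zero]⟩) _ ⟨V, hV, rfl⟩
    refine funext fun y => ?_
    by_cases hy : y ∈ ρ '' X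
    · obtain ⟨x, hx, rfl⟩ := hy
      have h1 := (b.symm.Dv_left (b.mf hx) ((gj V hV).vf.tan _ (b.mf hx))).2
      rw [b.gf x hx, hj V x hx, ← hl V x hx, ← ha, DΘ x hx _ ((h.gen a).vf.tan x hx), t.kill a x hx] at h1
      exact (congrArg Prod.snd h1).symm
    · exact (hS V hV).off y hy

/-- `exists_cx`, `unimodular`, `ja1`, `ja2` at every point; constant rank from the signature of the Killing form
(`ker (ev x) ⊓ 𝔪 y = ⊥`); the range of `ev x` is a complex subspace so its real dimension is even. -/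
theorem stSplit {n : ℕ} {X : Set E} (hX : CM n X) (hL : Lat X) :
    ∃ (r s : ℕ) (D : Set (Fin r → ℂ)) (Y : Set E) (f : E → (Fin r → ℂ) × E) (g : (Fin r → ℂ) × E → E),
      IsOpen D ∧ Sym r D ∧ CM s Y ∧ Coc Y ∧ Rigid Y ∧ Bih X (D ×ˢ Y) f g := by
  obtain ⟨L, _, _, _, ι, h, hcx, hmax, hi, hn⟩ := exists_cx hX
  obtain ⟨x₀, hx₀⟩ := hX.conn.nonempty
  have hj : ∀ x ∈ X, JAlg (evx ι x) := fun x hx => h.jalg hX hx (hcx.ex hx)
  have hk := ja1 (hj x₀ hx₀) (hn x₀ hx₀) (unimodular hX hL h hi)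
  have key : ∀ x ∈ X, ∀ y ∈ X, Module.finrank ℝ (LinearMap.range (evx ι y)) ≤
      Module.finrank ℝ (LinearMap.range (evx ι x)) := fun x hx y hy => by
    obtain ⟨-, -, 𝔪, h1, h2⟩ := ja2 (hj y hy) (hn y hy) hk
    have h3 : Disjoint 𝔪 (LinearMap.ker (evx ι x)) := Submodule.disjoint_def.2 fun a ha ha' => by
      by_contra h0
      exact (h2 a ha h0).not_gt (hn x hx a ha' h0)
    have h4 := Submodule.finrank_add_finrank_le_of_disjoint h3
    have h5 := Submodule.finrank_add_eq_of_isCompl h1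
    have h6 := (evx ι x).finrank_range_add_finrank_ker
    have h7 := (evx ι y).finrank_range_add_finrank_ker
    omega
  exact ⟨_, split_of hX hL.coc h hcx hmax hi (fun x hx => (ja2 (hj x hx) (hn x hx) hk).imp fun _ hZ => hZ.1)
    fun x hx => (le_antisymm (key _ hx₀ _ hx) (key _ hx _ hx₀)).trans (spV_rank x₀ (hcx.ex hx₀))⟩

end Crest.Agent.R264
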