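import Crest.Agent.R264.PartA
import Crest.Agent.R264.Beta
import Crest.Agent.R264.Split
import Crest.Agent.R264.Sm
import Crest.Agent.R264.Init

set_option autoImplicit false
set_option linter.unusedSectionVars false
open Set Filter Topology Metric Complex

namespace Crest.Agent.R264

variable {E F G : Type}
  [NormedAddCommGroup E] [NormedSpace ℂ E] [NormedSpace ℝ E] [IsScalarTower ℝ ℂ E] [FiniteDimensional ℂ E]
  [NormedAddCommGroup F] [NormedSpace ℂ F] [NormedSpace ℝ F] [IsScalarTower ℝ ℂ F] [FiniteDimensional ℂ F]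
  [NormedAddCommGroup G] [NormedSpace ℂ G] [NormedSpace ℝ G] [IsScalarTower ℝ ℂ G] [FiniteDimensional ℂ G]

theorem rigid_trivial {s : ℕ} {Y : Set F} (hY : CM s Y) (hc : Coc Y) (hR : Rigid Y) :
    ∀ (n r : ℕ) (D : Set E), Sym r D → Mfd n (D ×ˢ Y) → Cls n (D ×ˢ Y) → Y.Subsingleton := by
  intro n
  induction n using Nat.strong_induction_on with
  | _ n ih =>
    intro r D hD hM hC
    have hX0 := hD.cm.prod hY
    have hX : CM n (D ×ˢ Y) := ⟨hM, hX0.conn, hX0.bdd, hX0.cpt⟩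
    rcases Nat.eq_zero_or_pos n with rfl | hn
    · obtain ⟨z, hz⟩ := hD.cm.conn.nonempty
      intro y hy y' hy'
      have := hM.subsingleton hX.conn.isPreconnected (mk_mem_prod hz hy) (mk_mem_prod hz hy')
      exact (Prod.ext_iff.1 this).2
    · obtain ⟨A, _, κ, T, Dl, ρ, Ω, k, hA, hk, hd, hC'⟩ := stA hX (hD.coc.prod hc) hn hC
      obtain ⟨r', D', f, g, hD', hb⟩ := stBeta hD hY hR hX hA hk hd
      exact ih k (by omega) r' D' hD' (hk.bih hb) (hC'.bih hb)

theorem main {n : ℕ} {X : Set E} (hX : CM n X) (hL : Lat X) (hC : Cls n X) :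
    ∃ (m : ℕ) (D : Set (Fin m → ℂ)) (f : E → Fin m → ℂ) (g : (Fin m → ℂ) → E),
      Crest.AlgGeometry.Semialg.IsBoundedSymmetricDomain D ∧ Bih X D f g := by
  obtain ⟨r, s, D, Y, f, g, hO, hD, hY, hc, hR, hb⟩ := stSplit hX hL
  have hs := rigid_trivial hY hc hR n r D hD (hX.mfd.bih hb) (hC.bih hb)
  obtain ⟨y₀, hy₀⟩ := hY.conn.nonempty
  refine ⟨r, D, fun x => (f x).1, fun z => g (z, y₀), hD.bsd hO, ?_⟩
  have hb' : Bih (D ×ˢ Y) D (fun p => p.1) (fun z => (z, y₀)) :=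
    ⟨analyticOn_fst, analyticOn_id.prod analyticOn_const, fun p hp => hp.1, fun z hz => ⟨hz, hy₀⟩,
      fun p hp => Prod.ext rfl (hs hy₀ hp.2), fun _ _ => rfl⟩
  exact hb.trans hb'

end Crest.Agent.R264
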