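import Crest.Agent.R264.Fol.Main

/-! The Levi foliation at a generic point of the wall.  See `Blueprint.lean`, section Fol. -/

set_option autoImplicit false
set_option linter.unusedSectionVars false
open Set Filter Topology MvPolynomial

namespace Crest.Agent.R264

variable {ι : Type} [Fintype ι] [DecidableEq ι]

/-- `p₀` is a generic point of the hypersurface `{R₀ = 0}`, `IS {p₀} = (R₀)`; `R₀ > 0` is the distinguished side. -/
theorem stFol {𝕜 : Subfield ℝ} [Countable 𝕜] {R₀ : MvPolynomial (ι ⊕ ι) 𝕜} {p₀ : ι → ℂ}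
    (h0 : aeval (rc p₀) R₀ = 0) (hI : ∀ f : MvPolynomial (ι ⊕ ι) 𝕜, aeval (rc p₀) f = 0 → R₀ ∣ f)
    (hd : ∃ i, aeval (rc p₀) (pderiv i R₀) ≠ 0) (htd : td 𝕜 (rc p₀) + 1 = 2 * Fintype.card ι)
    {W : Set (ι → ℂ)} (hW : W ∈ 𝓝 p₀) :
    ∃ (A B : Type) (_ : Fintype A) (_ : Fintype B) (_ : DecidableEq A) (_ : DecidableEq B) (e : Option A ⊕ B ≃ ι)
      (G : Geo A B) (𝕜₁ : Subfield ℝ), G.OK (fun z => aeval (rc (fu z ∘ e.symm)) R₀) ∧ G.AlgOK 𝕜 𝕜₁ ∧ G.nd G.p ∧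
        fu G.p ∘ e.symm ∈ W ∧ ∀ᶠ q in 𝓝 G.p, (0 < G.r G.p q ↔ 0 < aeval (rc (fu q ∘ e.symm)) R₀) := by
  obtain ⟨A, B, _, _, _, _, e, L, hL, hp, hR⟩ := Fol.exists_Lv h0 hI hd htd
  obtain ⟨T, hT⟩ := exists_fuL A B
  have hc : Continuous fun z : Amb A B => fu z ∘ e.symm :=
    continuous_pi fun i => (continuous_apply (e.symm i)).comp (T.continuous.congr hT)
  have hW' : (fun z : Amb A B => fu z ∘ e.symm) ⁻¹' W ∈ 𝓝 L.p := hc.continuousAt.preimage_mem_nhds (hp ▸ hW)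
  obtain ⟨G, 𝕜₁, h1, h2, h3, h4, h5⟩ := hL.core hW'
  refine ⟨A, B, inferInstance, inferInstance, inferInstance, inferInstance, e, G, 𝕜₁, ?_, h2, h3, h4, ?_⟩
  · rwa [← funext hR]
  · simpa only [hR] using h5

end Crest.Agent.R264
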