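import Crest.Agent.R264.Alg.Cx
import Crest.Agent.R264.Model.Co

/-! The data downstairs.  See `Blueprint.lean`, section GeoAlg. -/

set_option autoImplicit false
set_option linter.unusedSectionVars false
open Set Filter Topology MvPolynomial

namespace Crest.Agent.R264

variable {A B : Type} [Fintype A] [Fintype B] [DecidableEq A] [DecidableEq B]

/-- `Amb A B` as a space of functions -/
def fu (z : Amb A B) : Option A ⊕ B → ℂ := Sum.elim (fun o => o.elim z.1 z.2.1) z.2.2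

/-- real coordinates on `Amb A B` -/
def ra (z : Amb A B) : (Option A ⊕ B) ⊕ (Option A ⊕ B) → ℝ := rc (fu z)

/-- the `t`-coordinates -/
def eB (A B : Type) : B ⊕ B → (Option A ⊕ B) ⊕ (Option A ⊕ B) := Sum.map Sum.inr Sum.inr

theorem ra_eB (z : Amb A B) : ra z ∘ eB A B = rc z.2.2 := by
  funext i; rcases i with i | i <;> rfl

theorem exists_fuL (A B : Type) [Fintype A] [Fintype B] :
    ∃ L : Amb A B ≃L[ℂ] (Option A ⊕ B → ℂ), ∀ z, L z = fu z := by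
  let L : Amb A B ≃ₗ[ℂ] (Option A ⊕ B → ℂ) :=
    { toFun := fu
      invFun := fun f => (f (Sum.inl none), fun a => f (Sum.inl (some a)), fun b => f (Sum.inr b))
      map_add' := fun z w => by funext i; rcases i with (_ | i) | i <;> rfl
      map_smul' := fun c z => by funext i; rcases i with (_ | i) | i <;> rfl
      left_inv := fun z => rfl
      right_inv := fun f => by funext i; rcases i with (_ | i) | i <;> rfl }
  exact ⟨L.toContinuousLinearEquiv, fun z => rfl⟩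

/-- algebraicity of the leaf and of the family of leaves; `𝕜₁` is a field of definition of the leaf -/
structure Geo.AlgOK (G : Geo A B) (𝕜 𝕜₁ : Subfield ℝ) : Prop where
  le : 𝕜 ≤ 𝕜₁
  cnt : Countable 𝕜₁
  h0 : ∃ h : MvPolynomial B ℂ, h ≠ 0 ∧ ∀ τ, G.h0 τ = eval τ h
  uniq : ∀ z ∈ G.Z, ∀ᶠ q in 𝓝 z, ra q ∈ ZS (IS 𝕜₁ (ra '' G.Z)) → G.b z q.2.2 = q
  alg : ∀ z ∈ G.Z, td 𝕜₁ (ra z) ≤ td 𝕜₁ (rc z.2.2)
  deg : ∃ f : MvPolynomial _ 𝕜₁, ∀ z ∈ G.Z, (G.nd z ↔ aeval (ra z) f ≠ 0)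
  tsx : ∀ z ∈ G.Z, G.nd z → 2 * Fintype.card A + 1 + td 𝕜₁ (ra z) ≤ td 𝕜 (ra z)
  trv : ∀ z ∈ G.Z, G.nd z → ∀ y : MvPolynomial _ 𝕜, aeval (ra z) y = 0 →
    fderiv ℝ (fun τ => aeval (ra (G.b z τ)) y) z.2.2 = 0 →
      ∃ c : ℝ, fderiv ℝ (fun q => aeval (ra q) y) z = c • fderiv ℝ (G.r z) z

/-- lines in a transversal direction meet the hypersurface, and `y` is injective on them -/
theorem gc_line {H : Type} [NormedAddCommGroup H] [NormedSpace ℝ H] [CompleteSpace H] {r y : H → ℝ} {z v : H}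
    (hr : AnalyticAt ℝ r z) (h0 : r z = 0) (hv : fderiv ℝ r z v ≠ 0) (hy : AnalyticOnNhd ℝ y univ)
    (hv' : fderiv ℝ y z v ≠ 0) {N : Set H} (hN : N ∈ 𝓝 z) :
    ∀ᶠ q in 𝓝 z, ∃ s : ℝ, q + s • v ∈ N ∧ r (q + s • v) = 0 ∧ (y (q + s • v) = y q → s = 0) := by
  have c1 : ContinuousAt (fun q => fderiv ℝ y q v) z :=
    ((hy z trivial).fderiv.continuousAt).clm_apply continuousAt_const
  obtain ⟨ρ, hρ, hb⟩ := Metric.mem_nhds_iff.1 (inter_mem hN (c1.eventually_ne hv'))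
  let M : H × ℝ →L[ℝ] H := ContinuousLinearMap.fst ℝ H ℝ + (ContinuousLinearMap.snd ℝ H ℝ).smulRight v
  have hM : ∀ p : H × ℝ, M p = p.1 + p.2 • v := fun p => rfl
  have hM0 : M (z, 0) = z := by simp [hM]
  have e1 : HasStrictFDerivAt r (fderiv ℝ r z) (M (z, 0)) := by rw [hM0]; exact hr.hasStrictFDerivAt
  have e2 := ((ContinuousLinearMap.fst ℝ H ℝ).hasStrictFDerivAt.prodMk
    (e1.comp (z, 0) M.hasStrictFDerivAt)).map_nhds_eq_of_surj (by
      refine LinearMap.range_eq_top.2 fun p => ⟨(p.1, (p.2 - fderiv ℝ r z p.1) / fderiv ℝ r z v), ?_⟩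
      refine Prod.ext rfl ?_
      show fderiv ℝ r z (M _) = p.2
      rw [hM, map_add, map_smul, smul_eq_mul]
      field_simp
      ring)
  have e3 : ∀ᶠ p : H × ℝ in 𝓝 (z, 0), M p ∈ Metric.ball z ρ :=
    M.continuous.continuousAt.eventually (by rw [hM0]; exact Metric.ball_mem_nhds z hρ)
  have e4 := image_mem_map (m := fun p : H × ℝ => (ContinuousLinearMap.fst ℝ H ℝ p, r (M p))) e3
  rw [e2, hM0, h0] at e4
  have e5 : Tendsto (fun q : H => (q, (0 : ℝ))) (𝓝 z) (𝓝 (z, 0)) := (Continuous.prodMk_left (0 : ℝ)).tendsto z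
  filter_upwards [e5.eventually e4, Metric.ball_mem_nhds z hρ] with q ⟨⟨q', s⟩, hp, he⟩ hq
  obtain ⟨rfl, he'⟩ : q' = q ∧ r (q' + s • v) = 0 := Prod.ext_iff.1 he
  refine ⟨s, (hb hp).1, he', fun hys => ?_⟩
  have hd : ∀ t : ℝ, HasDerivAt (fun t : ℝ => y (q' + t • s • v)) (fderiv ℝ y (q' + t • s • v) (s • v)) t := by
    intro t
    have := (hy _ trivial).differentiableAt.hasFDerivAt.comp_hasDerivAt t
      (((hasDerivAt_id t).smul_const (s • v)).const_add q')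
    simpa [Function.comp_def] using this
  obtain ⟨c, hc, hc0⟩ := exists_hasDerivAt_eq_zero (f := fun t : ℝ => y (q' + t • s • v)) zero_lt_one
    (fun t _ => (hd t).continuousAt.continuousWithinAt) (by simpa using hys.symm) (fun t _ => hd t)
  have hm : q' + c • s • v ∈ Metric.ball z ρ := (convex_ball z ρ).add_smul_mem hq hp ⟨hc.1.le, hc.2.le⟩
  rw [map_smul, smul_eq_mul] at hc0
  exact (mul_eq_zero.1 hc0).resolve_right (hb hm).2

/-- from the two-direction cell structure to `Geo.Cell` (analysis only) -/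
theorem Geo.OK.cell {G : Geo A B} {R : Amb A B → ℝ} (h : G.OK R) {C : Set (Amb A B)} {R₁ : (B → ℂ) → ℝ}
    {z : Amb A B} (hz : z ∈ G.Z) (hn : G.nd z) {v : Fin 2 → Amb A B} {y : Fin 2 → Amb A B → ℝ}
    (ha : ∀ i, AnalyticOnNhd ℝ (y i) univ) (hi : ∀ i q (s : ℝ), y i (q + s • v i) = y i q) (h0 : ∀ i, y i z = 0)
    (hd : ∀ i j, i ≠ j → fderiv ℝ (y i) z (v j) ≠ 0)
    (hc : ∀ᶠ q in 𝓝 z, R q = 0 → (y 0 q = 0 ↔ y 1 q = 0) ∧ ∀ i, y i q ≠ 0 → q ∉ C ∧ ∃ r' : Amb A B → ℝ,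
      AnalyticAt ℝ r' q ∧ fderiv ℝ r' q (v i) ≠ 0 ∧ ∀ᶠ q' in 𝓝 q, (R q' = 0 ↔ r' q' = 0))
    (ht : ∃ i, fderiv ℝ (fun τ => y i (G.b z τ)) z.2.2 ≠ 0)
    (hH : ∀ᶠ τ in 𝓝 z.2.2, R₁ τ = 0 → ∀ i, y i (G.b z τ) = 0) : G.Cell R C R₁ z := by
  obtain ⟨i, ht⟩ := ht
  obtain ⟨j, hji, hij⟩ : ∃ j, j ≠ i ∧ ∀ᶠ q in 𝓝 z, R q = 0 → y i q = 0 → y j q = 0 := by
    fin_cases i
    · exact ⟨1, by decide, hc.mono fun q hq hR => (hq hR).1.1⟩
    · exact ⟨0, by decide, hc.mono fun q hq hR => (hq hR).1.2⟩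
  obtain ⟨r0, r1, r2⟩ := h.r_self hz hn
  have hr := h.anr z hz hn
  have hb : DifferentiableAt ℝ (G.b z) z.2.2 := (h.anb z hz).differentiableAt.restrictScalars ℝ
  have hcomp : ∀ f : Amb A B → ℝ, DifferentiableAt ℝ f z →
      fderiv ℝ (fun τ => f (G.b z τ)) z.2.2 = (fderiv ℝ f z).comp (fderiv ℝ (G.b z) z.2.2) := by
    intro f hf
    have := fderiv_comp z.2.2 (g := f) (by rwa [h.bz z hz]) hb
    rwa [h.bz z hz] at this
  have hyv : fderiv ℝ (y i) z (v i) = 0 := by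
    have e1 : HasDerivAt (fun s : ℝ => z + s • v i) (v i) 0 := by
      simpa using ((hasDerivAt_id (0 : ℝ)).smul_const (v i)).const_add z
    have e2 : HasFDerivAt (y i) (fderiv ℝ (y i) z) (z + (0 : ℝ) • v i) := by
      simpa using (ha i z trivial).differentiableAt.hasFDerivAt
    have e3 := e2.comp_hasDerivAt (0 : ℝ) e1
    simp only [Function.comp_def, hi] at e3
    exact e3.unique (hasDerivAt_const _ _)
  have hrv : fderiv ℝ (G.r z) z (v i) ≠ 0 := by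
    have e1 : IsLocalExtrOn (y j) {q | ∀ k, (![G.r z, y i] : Fin 2 → _) k q = (![G.r z, y i] : Fin 2 → _) k z} z := by
      refine Or.inl ?_
      filter_upwards [self_mem_nhdsWithin, nhdsWithin_le_nhds hij, nhdsWithin_le_nhds (h.rR z hz hn)] with q hq h1 h2
      rw [h0, h1 (h2 ((hq 0).trans r0)) ((hq 1).trans (h0 i))]
    obtain ⟨Λ, Λ₀, hne, he⟩ := e1.exists_multipliers_of_hasStrictFDerivAt
      (f' := ![fderiv ℝ (G.r z) z, fderiv ℝ (y i) z]) (fun k => by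
        fin_cases k
        · exact hr.hasStrictFDerivAt
        · exact (ha i z trivial).hasStrictFDerivAt) (ha j z trivial).hasStrictFDerivAt
    rw [Fin.sum_univ_two] at he
    simp only [Matrix.cons_val_zero, Matrix.cons_val_one] at he
    intro hrv
    have l0 : Λ₀ = 0 := by
      have := congrArg (fun L : Amb A B →L[ℝ] ℝ => L (v i)) he
      simpa [hrv, hyv, hd j i hji] using this
    have e2 : (fderiv ℝ (G.r z) z).comp (fderiv ℝ (G.b z) z.2.2) = 0 := by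
      rw [← hcomp _ hr.differentiableAt, (show (fun τ => G.r z (G.b z τ)) =ᶠ[𝓝 z.2.2] fun _ => 0 from r2).fderiv_eq,
        fderiv_fun_const]
      rfl
    have l1 : Λ 1 = 0 := by
      have := congrArg (fun L : Amb A B →L[ℝ] ℝ => L.comp (fderiv ℝ (G.b z) z.2.2)) he
      rw [hcomp _ (ha i z trivial).differentiableAt] at ht
      simpa [l0, ContinuousLinearMap.add_comp, ContinuousLinearMap.smul_comp, e2, ht] using this
    have l2 : Λ 0 = 0 := by simpa [l0, l1, r1] using he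
    refine hne (Prod.ext ?_ l0)
    funext k
    fin_cases k
    exacts [l2, l1]
  refine ⟨v i, y i, ha i, hi i, h0 i, hrv, ht, hH.mono fun τ hτ hR => hτ hR i, ?_⟩
  filter_upwards [hc, hij, gc_line hr r0 hrv (ha j) (hd j i hji) (hij.and (h.rR z hz hn))]
    with q hq hq' ⟨s, hs, hs0, hs1⟩ hR
  refine ⟨fun hy => ?_, (hq hR).2 i⟩
  have := hs1 ((hs.1 (hs.2 hs0) ((hi i q s).trans hy)).trans (hq' hR hy).symm)
  simpa [this] using hs0

theorem exists_raL (A B : Type) [Fintype A] [Fintype B] :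
    ∃ L : Amb A B ≃L[ℝ] ((Option A ⊕ B) ⊕ (Option A ⊕ B) → ℝ), ∀ z, L z = ra z := by
  obtain ⟨L, hL⟩ := exists_fuL A B
  obtain ⟨L', hL'⟩ := exists_rcL (Option A ⊕ B)
  refine ⟨(L.toLinearEquiv.restrictScalars ℝ).toContinuousLinearEquiv.trans L', fun z => ?_⟩
  rw [ra, ← hL, ← hL']
  rfl

theorem aeval_up {σ : Type} [Fintype σ] {𝕜 𝕜₁ : Subfield ℝ} (h : 𝕜 ≤ 𝕜₁) (q : σ → ℝ) (f : MvPolynomial σ 𝕜) :
    aeval q (map (Subfield.inclusion h) f) = aeval q f := by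
  rw [aeval_eq_eval_map, aeval_eq_eval_map, MvPolynomial.map_map]
  rfl

theorem Geo.OK.mfdZ {G : Geo A B} {R : Amb A B → ℝ} (h : G.OK R) : Mfd (Fintype.card B) G.Z := by
  refine Mfd.of_germ (G := B → ℂ) (Module.finrank_fintype_fun_eq_card ℂ) fun z hz =>
    ⟨G.b z, fun q => q.2.2, analyticAt_snd.comp analyticAt_snd, h.anb z hz, ?_, ?_⟩
  · filter_upwards [h.bt z hz] with τ hτ using ⟨hτ.2, hτ.1⟩
  · filter_upwards [mem_nhdsWithin_of_mem_nhds (h.near hz), self_mem_nhdsWithin] with q h1 h2 using h1 h2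

theorem Geo.OK.freq {G : Geo A B} {R : Amb A B → ℝ} (h : G.OK R) {F : Amb A B → ℝ} (hF : AnalyticOnNhd ℝ F univ)
    (hp : F G.p ≠ 0) {z : Amb A B} (hz : z ∈ G.Z) : ∃ᶠ τ in 𝓝 z.2.2, F (G.b z τ) ≠ 0 := by
  intro hcon
  refine hp (ident_real h.mfdZ isPreconnected_connectedComponentIn
    ((hF.mono (subset_univ _)).analyticOn) hz ?_ _ h.pZ)
  have ht : Tendsto (fun q : Amb A B => q.2.2) (𝓝 z) (𝓝 z.2.2) := (continuous_snd.comp continuous_snd).continuousAt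
  filter_upwards [mem_nhdsWithin_of_mem_nhds (h.near hz), self_mem_nhdsWithin,
    mem_nhdsWithin_of_mem_nhds (ht.eventually hcon)] with q h1 h2 h3
  rw [← h1 h2]
  simpa using h3

theorem Geo.AlgOK.grA {G : Geo A B} {R : Amb A B → ℝ} {𝕜 𝕜₁ : Subfield ℝ} (h : G.OK R) (ha : G.AlgOK 𝕜 𝕜₁)
    (L : Amb A B ≃L[ℝ] ((Option A ⊕ B) ⊕ (Option A ⊕ B) → ℝ)) (hL : ∀ z, L z = ra z)
    (L' : (B → ℂ) ≃L[ℝ] (B ⊕ B → ℝ)) (hL' : ∀ z, L' z = rc z) :
    GrA 𝕜₁ (ra '' G.Z) (eB A B) fun w x => ra (G.b (L.symm w) (L'.symm x)) := by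
  have h1 : ∀ z, L.symm (ra z) = z := fun z => by rw [← hL, L.symm_apply_apply]
  have h2 : ∀ τ, L'.symm (rc τ) = τ := fun z => by rw [← hL', L'.symm_apply_apply]
  refine ⟨?_, ?_, ?_, ?_, ?_⟩
  · rintro _ ⟨z, hz, rfl⟩
    simp only [← hL]
    rw [L.symm_apply_apply, hL, ra_eB]
    refine (L.analyticAt _).comp (AnalyticAt.comp (g := G.b z) ?_
      (L'.symm.analyticAt _))
    have := (h.anb z hz).restrictScalars (𝕜 := ℝ)
    simpa [h2] using this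
  · rintro _ ⟨z, hz, rfl⟩
    simp only [h1, ra_eB, h2, h.bz z hz]
  · rintro _ ⟨z, hz, rfl⟩
    have ht : Tendsto L'.symm (𝓝 (rc z.2.2)) (𝓝 z.2.2) := by
      simpa [h2] using L'.symm.continuous.tendsto (rc z.2.2)
    rw [ra_eB, h1]
    filter_upwards [ht.eventually (h.bt z hz)] with x hx
    exact ⟨by rw [ra_eB, hx.1, ← hL', L'.apply_symm_apply], mem_image_of_mem _ hx.2⟩
  · rintro _ ⟨z, hz, rfl⟩
    have ht : Tendsto L.symm (𝓝 (ra z)) (𝓝 z) := by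
      simpa [h1] using L.symm.continuous.tendsto (ra z)
    filter_upwards [ht.eventually (ha.uniq z hz)] with q hq hq'
    obtain ⟨q, rfl⟩ := L.surjective q
    rw [L.symm_apply_apply] at hq
    rw [hL] at hq' ⊢
    rw [h1, ra_eB, h2, hq hq']
  · rintro _ ⟨z, hz, rfl⟩
    rw [ra_eB]
    exact ha.alg z hz

theorem cell_case {G : Geo A B} {𝕜 𝕜₁ : Subfield ℝ} [Countable 𝕜] {R : MvPolynomial _ 𝕜} (hR : R ≠ 0)
    {C : Set ((Option A ⊕ B) ⊕ (Option A ⊕ B) → ℝ)} (hC : IsAlg 𝕜 C)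
    (hd : ∀ q ∈ C, td 𝕜 q + 2 ≤ 2 * Fintype.card (Option A ⊕ B))
    (h : G.OK fun z => aeval (ra z) R) (ha : G.AlgOK 𝕜 𝕜₁) {q : Amb A B} (hq : q ∈ G.Z) (hn : G.nd q)
    (hqC : ra q ∈ C) (htd : td 𝕜₁ (ra q) + 1 = Fintype.card (B ⊕ B)) :
    ∃ P : MvPolynomial _ 𝕜, aeval (ra q) P ≠ 0 ∧ ∀ z ∈ G.Z, G.nd z → ra z ∈ ZS (IS 𝕜 {ra q}) →
      aeval (ra z) P ≠ 0 → ∀ R₁ : (B → ℂ) → ℝ, (∀ᶠ τ in 𝓝 z.2.2, R₁ τ = 0 → ra (G.b z τ) ∈ ZS (IS 𝕜 {ra q})) →
        G.Cell (fun z => aeval (ra z) R) (ra ⁻¹' C) R₁ z := by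
  obtain ⟨L, hL⟩ := exists_raL A B
  have hLf : (ra : Amb A B → _) = L := funext fun z => (hL z).symm
  have h0 : aeval (ra q) R = 0 := (h.rR q hq hn).self_of_nhds (h.r_self hq hn).1
  obtain ⟨v, y, P, hy, hi, hP, hz⟩ := cell_alg hR hC (by simpa [two_mul] using hd) hqC h0 (by
    have h1 := ha.tsx q hq hn
    have h2 := hd _ hqC
    simp only [Fintype.card_sum, Fintype.card_option] at h1 h2 htd ⊢
    omega)
  refine ⟨P, hP, fun z hzZ hzn hzq hzP R₁ hR₁ => ?_⟩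
  obtain ⟨h1, h2⟩ := hz _ hzq hzP
  have hfd : ∀ (f : ((Option A ⊕ B) ⊕ (Option A ⊕ B) → ℝ) → ℝ) (x : Amb A B) w,
      fderiv ℝ (fun x => f (ra x)) x (L.symm w) = fderiv ℝ f (ra x) w := by
    intro f x w
    have := L.comp_right_fderiv (f := f) (x := x)
    rw [hLf, show (fun x => f (L x)) = f ∘ L from rfl, this]
    simp
  have han : ∀ i, AnalyticOnNhd ℝ (fun x : Amb A B => aeval (ra x) (y i)) univ := fun i x _ => by
    rw [hLf]
    exact (analytic_aeval (y i) _ (mem_univ _)).comp (L.analyticAt x)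
  have hinv : ∀ i (x : Amb A B) (s : ℝ), aeval (ra (x + s • L.symm (v i))) (y i) = aeval (ra x) (y i) := by
    intro i x s
    rw [← hL, map_add, map_smul, L.apply_symm_apply, hi, hL]
  have hy0 : ∀ i, aeval (ra z) (y i) = 0 := fun i => mem_spec.1 hzq _ (hy i)
  have hd' : ∀ i j, i ≠ j → fderiv ℝ (fun x : Amb A B => aeval (ra x) (y i)) z (L.symm (v j)) ≠ 0 := by
    intro i j hij
    rw [hfd fun x => aeval x (y i)]
    exact h1 i j hij
  refine h.cell hzZ hzn (v := fun i => L.symm (v i)) (y := fun i x => aeval (ra x) (y i)) han hinv hy0 hd' ?_ ?_ ?_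
  · have ht : Tendsto (ra : Amb A B → _) (𝓝 z) (𝓝 (ra z)) := by rw [hLf]; exact L.continuous.tendsto z
    filter_upwards [ht.eventually h2] with x hx hx0
    refine ⟨(hx hx0).1, fun i hi' => ?_⟩
    obtain ⟨h3, r, h4, h5, h6⟩ := (hx hx0).2 i hi'
    have ht' : Tendsto (ra : Amb A B → _) (𝓝 x) (𝓝 (ra x)) := by rw [hLf]; exact L.continuous.tendsto x
    refine ⟨h3, fun x => r (ra x), ?_, by rwa [hfd], ht'.eventually h6⟩
    rw [hLf] at h4 ⊢
    exact h4.comp (L.analyticAt x)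
  · by_contra hcon
    push Not at hcon
    obtain ⟨c₀, hc₀⟩ := ha.trv z hzZ hzn (y 0) (hy0 0) (hcon 0)
    obtain ⟨c₁, hc₁⟩ := ha.trv z hzZ hzn (y 1) (hy0 1) (hcon 1)
    have e1 := hd' 0 1 (by decide)
    have e2 := hd' 1 0 (by decide)
    have e3 := fderiv_inv_zero (han 1 z (mem_univ _)).differentiableAt (hinv 1 z)
    rw [hc₀] at e1
    rw [hc₁] at e2 e3
    simp only [smul_apply, smul_eq_mul] at e1 e2 e3
    rcases mul_eq_zero.1 e3 with e | e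
    · exact left_ne_zero_of_mul e2 e
    · exact right_ne_zero_of_mul e1 e
  · filter_upwards [hR₁] with τ hτ h0 i
    exact mem_spec.1 (hτ h0) _ (hy i)

theorem exists_tri {G : Geo A B} {𝕜 𝕜₁ : Subfield ℝ} [Countable 𝕜] {R : MvPolynomial _ 𝕜} (hR : R ≠ 0)
    {C : Set ((Option A ⊕ B) ⊕ (Option A ⊕ B) → ℝ)} (hC : IsAlg 𝕜 C)
    (hd : ∀ q ∈ C, td 𝕜 q + 2 ≤ 2 * Fintype.card (Option A ⊕ B))
    (h : G.OK fun z => aeval (ra z) R) (ha : G.AlgOK 𝕜 𝕜₁) {q : Amb A B} (hq : q ∈ G.Z)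
    (htd : td 𝕜₁ (ra q) + 1 = Fintype.card (B ⊕ B)) :
    ∃ P : MvPolynomial _ 𝕜₁, aeval (ra q) P ≠ 0 ∧ ∀ z ∈ G.Z, ra z ∈ ZS (IS 𝕜₁ {ra q}) →
      aeval (ra z) P ≠ 0 → ∀ R₁ : (B → ℂ) → ℝ, (∀ᶠ τ in 𝓝 z.2.2, R₁ τ = 0 → ra (G.b z τ) ∈ ZS (IS 𝕜₁ {ra q})) →
        (G.nd z ∧ z ∉ ra ⁻¹' C) ∨ (G.nd z ∧ G.Cell (fun z => aeval (ra z) R) (ra ⁻¹' C) R₁ z) ∨
          ∀ᶠ τ in 𝓝 z.2.2, R₁ τ = 0 → ¬ G.nd (G.b z τ) := by
  obtain ⟨f, hf⟩ := ha.deg
  by_cases hn : G.nd q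
  · by_cases hqC : ra q ∈ C
    · obtain ⟨P, hP, hz⟩ := cell_case hR hC hd h ha hq hn hqC htd
      have hdown : ∀ w, w ∈ ZS (IS 𝕜₁ {ra q}) → w ∈ ZS (IS 𝕜 {ra q}) := fun w hw => mem_spec.2 fun g hg => by
        rw [← aeval_up ha.le] at hg ⊢
        exact mem_spec.1 hw _ hg
      refine ⟨f * map (Subfield.inclusion ha.le) P, ?_, fun z hzZ hzq hzP R₁ hR₁ => ?_⟩
      · rw [map_mul, aeval_up]
        exact mul_ne_zero ((hf q hq).1 hn) hP
      · rw [map_mul, aeval_up] at hzP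
        have hzn := (hf z hzZ).2 (left_ne_zero_of_mul hzP)
        exact Or.inr (Or.inl ⟨hzn, hz z hzZ hzn (hdown _ hzq) (right_ne_zero_of_mul hzP) R₁
          (hR₁.mono fun τ hτ h0 => hdown _ (hτ h0))⟩)
    · obtain ⟨g, hg, hgC⟩ := hC.exists_poly hqC
      refine ⟨f * map (Subfield.inclusion ha.le) g, ?_, fun z hzZ _ hzP R₁ _ => ?_⟩
      · rw [map_mul, aeval_up]
        exact mul_ne_zero ((hf q hq).1 hn) hg
      · rw [map_mul, aeval_up] at hzP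
        exact Or.inl ⟨(hf z hzZ).2 (left_ne_zero_of_mul hzP), fun hzC => right_ne_zero_of_mul hzP (hgC _ hzC)⟩
  · refine ⟨1, by simp, fun z hzZ _ _ R₁ hR₁ => Or.inr (Or.inr ?_)⟩
    filter_upwards [hR₁, h.bt z hzZ] with τ h1 h2 h0 hτ
    exact (hf _ h2.2).1 hτ (mem_spec.1 (h1 h0) f (by_contra fun hc => hn ((hf q hq).2 hc)))

theorem stDown {G : Geo A B} {𝕜 𝕜₁ : Subfield ℝ} [Countable 𝕜] {R : MvPolynomial _ 𝕜} (hR : R ≠ 0)
    {C : Set ((Option A ⊕ B) ⊕ (Option A ⊕ B) → ℝ)} (hC : IsAlg 𝕜 C)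
    (hd : ∀ q ∈ C, td 𝕜 q + 2 ≤ 2 * Fintype.card (Option A ⊕ B))
    (h : G.OK fun z => aeval (ra z) R) (ha : G.AlgOK 𝕜 𝕜₁) (hp : G.nd G.p) (hpC : ra G.p ∉ C) :
    ∃ (R₁ : MvPolynomial (B ⊕ B) ℝ) (C₁ : Set (B → ℂ)), Thin C₁ ∧
      G.Down (fun z => aeval (ra z) R) (ra ⁻¹' C) (pev R₁) C₁ := by
  have := ha.cnt
  obtain ⟨L, hL⟩ := exists_raL A B
  obtain ⟨L', hL'⟩ := exists_rcL B
  have hLf : (ra : Amb A B → _) = L := funext fun z => (hL z).symm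
  have hLf' : (rc : (B → ℂ) → _) = L' := funext fun z => (hL' z).symm
  have h1 : ∀ z, L.symm (ra z) = z := fun z => by rw [← hL, L.symm_apply_apply]
  have h2 : ∀ τ, L'.symm (rc τ) = τ := fun z => by rw [← hL', L'.symm_apply_apply]
  have htr : ∀ τ : B → ℂ, Tendsto (rc : (B → ℂ) → _) (𝓝 τ) (𝓝 (rc τ)) := fun τ => by
    rw [hLf']; exact L'.continuous.tendsto τ
  have hG := ha.grA h L hL L' hL'
  have he : Function.Injective (eB A B) := Sum.inr_injective.sumMap Sum.inr_injective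
  obtain ⟨f, hf⟩ := ha.deg
  obtain ⟨g, hg, hgC⟩ := hC.exists_poly hpC
  obtain ⟨R', hR', hR'z⟩ := hG.hyp he (f := f * map (Subfield.inclusion ha.le) g) (by
    rintro _ ⟨z, hz, rfl⟩
    have hF : AnalyticOnNhd ℝ (fun x : Amb A B => aeval (ra x) (f * map (Subfield.inclusion ha.le) g)) univ :=
      fun x _ => by
        rw [hLf]
        exact (analytic_aeval _ _ (mem_univ _)).comp (L.analyticAt x)
    have := h.freq hF (by
      rw [map_mul, aeval_up]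
      exact mul_ne_zero ((hf _ h.pZ).1 hp) hg) hz
    rw [ra_eB, h1]
    refine (htr z.2.2).frequently ?_
    simpa only [h2] using this)
  have hgood : ∀ z ∈ G.Z, aeval (rc z.2.2) R' ≠ 0 → G.nd z ∧ z ∉ ra ⁻¹' C := by
    intro z hz hne
    have h3 : aeval (ra z) (f * map (Subfield.inclusion ha.le) g) ≠ 0 := fun h0 =>
      hne (by rw [← ra_eB]; exact hR'z _ (mem_image_of_mem _ hz) h0)
    rw [map_mul, aeval_up] at h3
    exact ⟨(hf z hz).2 (left_ne_zero_of_mul h3), fun hzC => right_ne_zero_of_mul h3 (hgC _ hzC)⟩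
  choose! P hP hPz using fun q (hq : q ∈ G.Z) htd => exists_tri hR hC hd h ha hq htd
  obtain ⟨C', hC', hC'd, hsm, hov⟩ := hG.over he hR' (fun w => P (L.symm w)) (by
    rintro _ ⟨q, hq, rfl⟩ - htd
    rw [h1]
    exact hP q hq htd)
  obtain ⟨h0, hh0, hh⟩ := ha.h0
  have hT : Thin (rc ⁻¹' C' ∪ {τ | eval τ h0 = 0}) :=
    Thin.union ⟨𝕜₁, ha.cnt, C', hC', by simpa [two_mul] using hC'd, rfl⟩ (thin_zero hh0)
  obtain ⟨RC, hRC, hRCz⟩ := hT.exists_poly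
  have hpev : ∀ τ, pev (map 𝕜₁.subtype R' * RC) τ = aeval (rc τ) R' * pev RC τ := fun τ => by
    rw [pev, map_mul, ← aeval_eq_eval_map, pev]
  have hnear : ∀ τ, τ ∉ rc ⁻¹' C' ∪ {τ | eval τ h0 = 0} →
      ∀ᶠ τ' in 𝓝 τ, (pev (map 𝕜₁.subtype R' * RC) τ' = 0 ↔ aeval (rc τ') R' = 0) := by
    intro τ hτ
    filter_upwards [hT.isClosed.isOpen_compl.mem_nhds hτ] with τ' hτ'
    rw [hpev, mul_eq_zero, hRCz, or_iff_left hτ']
  refine ⟨map 𝕜₁.subtype R' * RC, _, hT, analytic_pev _, pev_ne (mul_ne_zero ?_ hRC), hT.isClosed, hT.small,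
    fun τ hτ => Or.inr (by rw [hh] at hτ; exact hτ), fun τ hτ => by rw [hpev, (hRCz τ).2 hτ, mul_zero],
    fun z hz hne => hgood z hz (by rw [hpev] at hne; exact left_ne_zero_of_mul hne), fun z hz hzC => ?_,
    fun τ hτ hτ0 => ?_⟩
  · rw [Ne, ← map_zero (MvPolynomial.map 𝕜₁.subtype), (MvPolynomial.map_injective _ 𝕜₁.subtype.injective).eq_iff]
    exact hR'
  · by_cases hz0 : aeval (rc z.2.2) R' = 0
    · obtain ⟨_, ⟨q, hq, rfl⟩, -, htd, hzq, hzP, hev⟩ := hov (ra z) (mem_image_of_mem _ hz)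
        (by rw [ra_eB]; exact fun hc => hzC (Or.inl hc)) (by rw [ra_eB]; exact hz0)
      rw [h1] at hzP
      rw [ra_eB, h1] at hev
      refine hPz q hq htd z hz hzq hzP _ ?_
      filter_upwards [(htr z.2.2).eventually hev, hnear _ hzC] with τ h3 h4 h5
      have := h3 (h4.1 h5)
      rwa [h2] at this
    · exact Or.inl (hgood z hz hz0)
  · obtain ⟨r, hr, hr0, hrev⟩ := hsm (rc τ) (fun hc => hτ (Or.inl hc)) ((hnear τ hτ).self_of_nhds.1 hτ0)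
    refine ⟨fun τ => r (rc τ), ?_, ?_, ?_⟩
    · rw [hLf'] at hr ⊢
      exact hr.comp (L'.analyticAt τ)
    · intro hc
      apply hr0
      have h3 := L'.comp_right_fderiv (f := r) (x := τ)
      rw [hLf', show (fun x => r (L' x)) = r ∘ L' from rfl, h3] at hc
      ext1 w
      have := congrArg (fun φ => φ (L'.symm w)) hc
      simpa [hLf'] using this
    · filter_upwards [(htr τ).eventually hrev, hnear τ hτ] with τ' h3 h4
      exact h4.trans h3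

end Crest.Agent.R264
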