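import Crest.Agent.R264.Glob.G3

set_option autoImplicit false
set_option linter.unusedSectionVars false
open Set Filter Topology Metric Complex

namespace Crest.Agent.R264

variable {E : Type} [NormedAddCommGroup E] [NormedSpace ℂ E] [NormedSpace ℝ E] [IsScalarTower ℝ ℂ E]
  [FiniteDimensional ℂ E] {A B : Type} [Fintype A] [Fintype B] {G : Geo A B} {R : Amb A B → ℝ} {n : ℕ} {X : Set E}
  {π : E → Amb A B} {S : Sq E A B}

variable {C : Set (Amb A B)} {R₁ : (B → ℂ) → ℝ} {C₁ : Set (B → ℂ)}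

/-! `Sq.Om`, `glob` (`Glob/G1`), `act` (`Glob/G2`), `Geo.OK.fibre`, `inh` (`Glob/G3`). -/

theorem stGlob (h : G.OK R) (hX : CM n X) (hn : Module.finrank ℂ (Amb A B) = n) (hco : Coc X) (hc : ACls X π R C)
    (hD : G.Down R C R₁ C₁) {p : Amb A B} (hz : p ∈ G.Z) (h1 : R₁ p.2.2 ≠ 0) {W : Set (Amb A B)} {σ : Amb A B → E}
    (d : G.Datum X π p W ∅ σ) : ∃ T Dl ρ Ω, HAct X A G.ka T Dl ρ Ω ∧ Mfd (Fintype.card B) (ρ '' X) ∧
      ∃ π₁ : E → B → ℂ, ACls (ρ '' X) π₁ R₁ C₁ := by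
  have u := hc.up hX hn
  obtain ⟨S, hS, y₀, m₀, hp, h0⟩ := d.ini h u hco hz (hD.good p hz h1).1
  obtain ⟨hs, hcl, hm⟩ := glob h u hc hD hS h0 (by simpa [Sq.tP, hp] using h1)
  obtain ⟨T, Dl, ρ, hA, hl⟩ := act h u hS hs hcl hm
  obtain ⟨hM, hI⟩ := inh h u hc hD hS hs hcl hm hA.anρ hA.mρ hA.idem hl
  exact ⟨T, Dl, ρ, _, hA, hM, _, hI⟩

end Crest.Agent.R264
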