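import Crest.Agent.R264.Base.Rem
import Crest.Agent.R264.Base.Top

set_option autoImplicit false
set_option linter.unusedSectionVars false
open Set Filter Topology Metric Complex

namespace Crest.Agent.R264

variable {E F G : Type}
  [NormedAddCommGroup E] [NormedSpace ℂ E] [NormedSpace ℝ E] [IsScalarTower ℝ ℂ E] [FiniteDimensional ℂ E]
  [NormedAddCommGroup F] [NormedSpace ℂ F] [NormedSpace ℝ F] [IsScalarTower ℝ ℂ F] [FiniteDimensional ℂ F]
  [NormedAddCommGroup G] [NormedSpace ℂ G] [NormedSpace ℝ G] [IsScalarTower ℝ ℂ G] [FiniteDimensional ℂ G]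

/-- The initial wall.  `Ω₀ = (closure (π '' X))ᶜ` is open and nonempty, `π '' X` has interior points; `Cᶜ` is connected
(`Small.preconn` for `univ`) and dense, so the frontier of `Ω₀` has a point `q ∉ C`.  `PP` forces `R q = 0`; in `LT` at
`q` there is no full section, not both sides carry sections, and one side does because `Reg` is dense in `X`
(`small_not_sub`, `Reg_eq_Sub`, `Small.dense`). -/
theorem stWall {n : ℕ} {X : Set E} (hX : CM n X) (hn : Module.finrank ℂ F = n) (h0 : 0 < n) {π : E → F} {R : F → ℝ}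
    {C : Set F} (hc : ACls X π R C) : ∃ (q : F) (W : Set F) (r : F → ℝ) (σ : F → E), IsOpen W ∧ q ∈ W ∧ q ∉ C ∧
      AnalyticOnNhd ℝ r W ∧ r q = 0 ∧ fderiv ℝ r q ≠ 0 ∧ (∀ q' ∈ W, R q' = 0 ↔ r q' = 0) ∧
      Sec X π (W ∩ {q' | 0 < r q'}) σ ∧ Walled X π W r ∅ σ := by
  obtain ⟨x₀, hx₀, hR₀⟩ := hc.ex
  obtain ⟨W₀, hW₀, hq₀, 𝒮, -, h𝒮, hcov⟩ := hc.pp _ hR₀
  obtain ⟨σ₀, hσ₀, -⟩ := hcov x₀ hx₀ hq₀
  have hsec : ∀ {W : Set F} {σ : F → E}, IsOpen W → Sec X π W σ → W ⊆ interior (closure (π '' X)) :=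
    fun hW hσ => interior_maximal (fun q hq => subset_closure ⟨_, (hσ.2 q hq).1, (hσ.2 q hq).2⟩) hW
  have hU : Mfd (Module.finrank ℂ F) (univ : Set F) := Mfd.of_isOpen isOpen_univ
  have hcon : IsPreconnected (univ \ C) := hc.smC.preconn hU isPreconnected_univ fun x _ hx => by
    rwa [inter_univ, hc.clC.closure_eq] at hx
  have hden : ∀ {O : Set F}, IsOpen O → O.Nonempty → ((univ \ C) ∩ O).Nonempty := by
    rintro O hO ⟨q, hq⟩
    obtain ⟨q', h1, h2⟩ := mem_closure_iff.1 (hc.smC.dense hU (mem_univ q)) O hO hq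
    exact ⟨q', h2, h1⟩
  have hne : (closure (π '' X))ᶜ.Nonempty := by
    rw [nonempty_compl]
    intro h
    have hb := hc.bdd.closure
    rw [h] at hb
    have : Nontrivial F := Module.nontrivial_of_finrank_pos (R := ℂ) (by omega)
    exact NormedSpace.unbounded_univ ℂ F hb
  obtain ⟨q, hqC, hq1, hq2⟩ : ∃ q, q ∉ C ∧ q ∈ closure (π '' X) ∧ q ∉ interior (closure (π '' X)) := by
    by_contra hcon'
    obtain ⟨q, -, h1, h2⟩ := hcon _ _ isClosed_closure.isOpen_compl isOpen_interior (fun q hq => by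
      by_cases h : q ∈ closure (π '' X)
      · exact Or.inr (by_contra fun h' => hcon' ⟨q, hq.2, h, h'⟩)
      · exact Or.inl h) (hden isClosed_closure.isOpen_compl hne)
      (hden isOpen_interior ⟨_, hsec hW₀ (h𝒮 σ₀ hσ₀) hq₀⟩)
    exact h1 (interior_subset h2)
  have hRq : R q = 0 := by
    by_contra h
    obtain ⟨W, hW, hqW, 𝒮', -, h𝒮', hcov'⟩ := hc.pp q h
    obtain ⟨_, h1, x, hx, rfl⟩ := mem_closure_iff.1 hq1 W hW hqW
    obtain ⟨σ, hσ, -⟩ := hcov' x hx h1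
    exact hq2 (hsec hW (h𝒮' σ hσ) hqW)
  obtain ⟨W, r, hW, hqW, hr, hdr, hRr, 𝒮₀, 𝒮p, 𝒮m, -, -, -, h₀, hp, hm, hcov'⟩ := hc.lt q hqC hRq
  obtain ⟨_, h1, x, hx, rfl⟩ := mem_closure_iff.1 hq1 W hW hqW
  have hsm := (small_not_sub hX.mfd hX.conn.isPreconnected hc.an
    ⟨_, (h𝒮 σ₀ hσ₀).sub hc.an hW₀ hq₀⟩).1
  have hfr : ∃ᶠ y in 𝓝[X] x, y ∈ Sub X π := by
    have := mem_closure_iff_frequently.1 (hsm.dense hX.mfd hx)
    rw [frequently_nhdsWithin_iff]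
    exact this.mono fun y hy => ⟨not_not.1 hy.2, hy.1⟩
  obtain ⟨y, hy, hyW⟩ := (hfr.and_eventually
    ((hc.an.continuousOn x hx).eventually (hW.mem_nhds h1))).exists
  rw [← Reg_eq_Sub hX.mfd hn] at hy
  rcases hcov' y hy hyW with ⟨σ, hσ, -⟩ | ⟨-, σ, hσ, -⟩ | ⟨-, σ, hσ, -⟩
  · exact absurd (hsec hW (h₀ σ hσ) hqW) hq2
  · exact ⟨q, W, r, σ, hW, hqW, hqC, hr, (hRr q hqW).1 hRq, hdr, hRr, hp σ hσ⟩
  · refine ⟨q, W, fun q' => -r q', σ, hW, hqW, hqC, hr.neg, by simp [(hRr q hqW).1 hRq], ?_,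
      fun q' hq' => by rw [hRr q' hq', neg_eq_zero], hm σ hσ⟩
    rw [fderiv_fun_neg]
    exact neg_ne_zero.2 hdr

end Crest.Agent.R264
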