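import Crest.Agent.R264.Glob
import Crest.Agent.R264.Wall
import Crest.Agent.R264.Fol

set_option autoImplicit false
set_option linter.unusedSectionVars false
open Set Filter Topology Metric Complex

namespace Crest.Agent.R264

variable {E F G : Type}
  [NormedAddCommGroup E] [NormedSpace ℂ E] [NormedSpace ℝ E] [IsScalarTower ℝ ℂ E] [FiniteDimensional ℂ E]
  [NormedAddCommGroup F] [NormedSpace ℂ F] [NormedSpace ℝ F] [IsScalarTower ℝ ℂ F] [FiniteDimensional ℂ F]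
  [NormedAddCommGroup G] [NormedSpace ℂ G] [NormedSpace ℝ G] [IsScalarTower ℝ ℂ G] [FiniteDimensional ℂ G]

section Aux
open MvPolynomial

theorem Geo.OK.mono_gl {A B : Type} [Fintype A] [Fintype B] {G : Geo A B} {R R' : Amb A B → ℝ} (h : G.OK R)
    (hR : ∀ q, R q = 0 → R' q = 0) : G.OK R' :=
  { h with rR := fun z hz hn => (h.rR z hz hn).mono fun q h1 h2 => hR q (h1 h2) }

theorem fderiv_pev_ne_gl {ι : Type} [Fintype ι] [DecidableEq ι] {𝕜 : Subfield ℝ} {f : MvPolynomial (ι ⊕ ι) 𝕜}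
    {p : ι → ℂ} (h : ∃ i, aeval (rc p) (pderiv i f) ≠ 0) :
    AnalyticOnNhd ℝ (fun z : ι → ℂ => aeval (rc z) f) univ ∧ fderiv ℝ (fun z : ι → ℂ => aeval (rc z) f) p ≠ 0 := by
  obtain ⟨L, hL⟩ := exists_rcL ι
  have he : (fun z : ι → ℂ => aeval (rc z) f) = (fun q : ι ⊕ ι → ℝ => aeval q f) ∘ L := by
    funext z; simp [hL]
  rw [he]
  refine ⟨fun z _ => (analytic_aeval f _ trivial).comp (L.analyticAt z), ?_⟩
  obtain ⟨i, hi⟩ := h
  intro h0
  rw [ContinuousLinearEquiv.comp_right_fderiv] at h0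
  have h1 := congrArg (fun T : (ι → ℂ) →L[ℝ] ℝ => T (L.symm (Pi.single i 1))) h0
  simp only [ContinuousLinearMap.comp_apply, ContinuousLinearEquiv.coe_coe, ContinuousLinearEquiv.apply_symm_apply,
    ContinuousLinearMap.zero_apply, fderiv_aeval] at h1
  rw [hL] at h1
  apply hi
  rw [← h1, Finset.sum_eq_single i]
  · simp
  · intro j _ hj; simp [hj]
  · simp

theorem neg_dvd_cr_gl {α : Type} [CommRing α] {a b : α} (h : a ∣ b) : -a ∣ b := neg_dvd.2 h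

/-- the generic point of the wall and its irreducible equation, with the right sign -/
theorem gen_wall_gl {ι : Type} [Fintype ι] [DecidableEq ι] {𝕜 : Subfield ℝ} [Countable 𝕜] {R : MvPolynomial (ι ⊕ ι) 𝕜}
    (hR : R ≠ 0) {q : ι → ℂ} {W : Set (ι → ℂ)} {r : (ι → ℂ) → ℝ} (hW : IsOpen W) (hq : q ∈ W)
    (hr : AnalyticOnNhd ℝ r W) (h0 : r q = 0) (hd : fderiv ℝ r q ≠ 0)
    (hz : ∀ q' ∈ W, aeval (rc q') R = 0 ↔ r q' = 0) :
    ∃ (p₀ : ι → ℂ) (R₀ : MvPolynomial (ι ⊕ ι) 𝕜), p₀ ∈ W ∧ aeval (rc p₀) R₀ = 0 ∧ R₀ ∣ R ∧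
      (∀ f : MvPolynomial (ι ⊕ ι) 𝕜, aeval (rc p₀) f = 0 → R₀ ∣ f) ∧ (∃ i, aeval (rc p₀) (pderiv i R₀) ≠ 0) ∧
      td 𝕜 (rc p₀) + 1 = 2 * Fintype.card ι ∧
      ∀ᶠ z in 𝓝 p₀, (0 < aeval (rc z) R₀ ↔ 0 < r z) ∧ (aeval (rc z) R₀ = 0 → r z = 0) := by
  obtain ⟨L, hL⟩ := exists_rcL ι
  have h1 : AnalyticAt ℝ (r ∘ L.symm) (L q) := by
    refine AnalyticAt.comp ?_ (L.symm.analyticAt _)
    rw [L.symm_apply_apply]; exact hr q hq
  have h2 : fderiv ℝ (r ∘ L.symm) (L q) ≠ 0 := by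
    rw [ContinuousLinearEquiv.comp_right_fderiv, L.symm_apply_apply]
    intro h3
    apply hd
    ext v
    simpa using congrArg (fun T : (ι ⊕ ι → ℝ) →L[ℝ] ℝ => T (L v)) h3
  have h3 := exists_generic_on (𝕜 := 𝕜) h1 (by simpa using h0) h2
  have h4 : ∀ᶠ z in 𝓝 q, z ∈ W ∧ fderiv ℝ r z ≠ 0 :=
    (hW.eventually_mem hq).and ((hr q hq).fderiv.continuousAt.eventually_ne hd)
  have h5 : Tendsto L.symm (𝓝 (L q)) (𝓝 q) := by
    simpa using L.symm.continuous.tendsto (L q)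
  obtain ⟨x, ⟨h6, h7⟩, h8, h9⟩ := (h3.and_eventually (h5.eventually h4)).exists
  set p₀ := L.symm x with hp₀
  have hx : x = rc p₀ := by rw [← hL, hp₀, L.apply_symm_apply]
  have h6' : r p₀ = 0 := h6
  have hR0 : aeval (rc p₀) R = 0 := (hz _ h8).2 h6'
  rw [hx] at h7
  obtain ⟨R₀, P, a1, a2, a3, a4, -, a5⟩ := hyp_generic hR hR0 h7
  have htd : td 𝕜 (rc p₀) + 1 = 2 * Fintype.card ι := by
    have := td_lt_card hR hR0
    rw [Fintype.card_sum] at this h7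
    omega
  obtain ⟨b1, b2⟩ := fderiv_pev_ne_gl (a5 _ a4).2
  have hP : ∀ᶠ z in 𝓝 p₀, aeval (rc z) P ≠ 0 := by
    have : ContinuousAt (fun z : ι → ℂ => aeval (rc z) P) p₀ := by
      have he : (fun z : ι → ℂ => aeval (rc z) P) = (fun q : ι ⊕ ι → ℝ => aeval q P) ∘ L := by
        funext z; simp [hL]
      rw [he]
      exact (analytic_aeval P _ trivial).continuousAt.comp L.continuous.continuousAt
    exact this.eventually_ne a4
  obtain ⟨c, hc, -, hs⟩ := sign_swap (hr _ h8) (b1 p₀ trivial) h6' h9 b2 (by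
    filter_upwards [hP, hW.eventually_mem h8] with z c1 c2 c3
    exact (a5 _ c1).1.1 ((hz z c2).2 c3))
  rcases lt_or_gt_of_ne hc with hc | hc
  · refine ⟨p₀, -R₀, h8, by rw [map_neg, a1, neg_zero], neg_dvd_cr_gl a2, fun f hf => neg_dvd_cr_gl (a3 f hf), ?_, htd, ?_⟩
    · obtain ⟨i, hi⟩ := (a5 _ a4).2
      exact ⟨i, by rw [map_neg, map_neg]; exact neg_ne_zero.2 hi⟩
    · filter_upwards [hs] with z ⟨c1, c2, _⟩
      rw [map_neg, c2]
      refine ⟨?_, fun c3 => c1.2 (neg_eq_zero.1 c3)⟩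
      generalize aeval (rc z) R₀ = t
      constructor
      · intro c3; nlinarith
      · intro c3; by_contra c4; nlinarith
  · refine ⟨p₀, R₀, h8, a1, a2, a3, (a5 _ a4).2, htd, ?_⟩
    filter_upwards [hs] with z ⟨c1, c2, _⟩
    exact ⟨by rw [c2, mul_pos_iff_of_pos_left hc], c1.2⟩

theorem rc_comp_gl {ι κ : Type} (z : κ → ℂ) (e : ι → κ) : rc (z ∘ e) = rc z ∘ Sum.map e e := by
  funext i; rcases i with i | i <;> rfl

theorem IsAlg.comap_gl {σ τ : Type} {𝕜 : Subfield ℝ} {C : Set (σ → ℝ)} (h : IsAlg 𝕜 C) (e : σ → τ) :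
    IsAlg 𝕜 {x : τ → ℝ | x ∘ e ∈ C} := by
  obtain ⟨J, rfl⟩ := h
  refine ⟨rename e '' J, ?_⟩
  ext x
  simp [ZS, aeval_rename]

theorem td_comp_surj_gl {σ τ : Type} (𝕜 : Subfield ℝ) (x : τ → ℝ) {e : σ → τ} (he : Function.Surjective e) :
    td 𝕜 (x ∘ e) = td 𝕜 x := by
  unfold td
  rw [he.range_comp]

end Aux

/-- The geometric data at a wall (glue): descend `R` to a countable field containing that of `C` (`exists_descend`),
take a generic `p₀ ∈ W` on `{r = 0}` (`exists_generic_on`, `exists_rcL`), `hyp_generic`, fix the sign of `R₀`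
(`sign_swap`), `stFol`, rename the variables along `e`, `stDown`, and move the base point along the branch to a point
with `R₁ ≠ 0` (`dense_ne`, `rgerm`). -/
theorem stGeo {ι : Type} [Fintype ι] {R : MvPolynomial (ι ⊕ ι) ℝ} (hR : R ≠ 0) {C : Set (ι → ℂ)} (hC : Thin C)
    {q : ι → ℂ} {W : Set (ι → ℂ)} {r : (ι → ℂ) → ℝ} (hW : IsOpen W) (hq : q ∈ W) (hr : AnalyticOnNhd ℝ r W)
    (h0 : r q = 0) (hd : fderiv ℝ r q ≠ 0) (hz : ∀ q' ∈ W, pev R q' = 0 ↔ r q' = 0) :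
    ∃ (A B : Type) (_ : Fintype A) (_ : Fintype B) (L : (ι → ℂ) ≃L[ℂ] Amb A B) (G : Geo A B)
      (R₁ : MvPolynomial (B ⊕ B) ℝ) (C₁ : Set (B → ℂ)) (p : Amb A B), G.OK (fun z => pev R (L.symm z)) ∧ Thin C₁ ∧
      G.Down (fun z => pev R (L.symm z)) (L.symm ⁻¹' C) (pev R₁) C₁ ∧ p ∈ G.Z ∧ pev R₁ p.2.2 ≠ 0 ∧ L.symm p ∈ W ∧
      ∀ᶠ z in 𝓝 p, (0 < G.r p z ↔ 0 < r (L.symm z)) ∧ (G.r p z = 0 → r (L.symm z) = 0) := by
  classical
  obtain ⟨𝕜₀, hk₀, C', hC', htd, rfl⟩ := hC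
  obtain ⟨𝕜, hle, hk, R', rfl⟩ := exists_descend 𝕜₀ R
  have hR' : R' ≠ 0 := by
    rintro rfl
    simp at hR
  have hev : ∀ z : ι → ℂ, pev (MvPolynomial.map 𝕜.subtype R') z = MvPolynomial.aeval (rc z) R' := fun z =>
    (aeval_eq_eval_map _ _).symm
  obtain ⟨p₀, R₀, a1, a2, a3, a4, a5, a6, a7⟩ := gen_wall_gl hR' hW hq hr h0 hd fun q' hq' => by
    rw [← hev]; exact hz q' hq'
  have hp₀ : rc p₀ ∉ C' := fun h1 => by
    have h2 := htd _ h1
    have h3 := td_mono_field hle (rc p₀)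
    omega
  have hcl : IsClosed (rc ⁻¹' C' : Set (ι → ℂ)) := Thin.isClosed ⟨𝕜₀, hk₀, C', hC', htd, rfl⟩
  obtain ⟨A, B, _, _, _, _, e, G, 𝕜₁, b1, b2, b3, ⟨⟨b4, b5⟩, b6⟩, b7⟩ := stFol a2 a4 a5 a6
    (inter_mem (inter_mem (hW.mem_nhds a1) (hcl.isOpen_compl.mem_nhds hp₀)) (eventually_eventually_nhds.2 a7))
  obtain ⟨Lf, hLf⟩ := exists_fuL A B
  set L : (ι → ℂ) ≃L[ℂ] Amb A B :=
    (Lf.trans (LinearEquiv.funCongrLeft ℂ ℂ e.symm).toContinuousLinearEquiv).symm with hL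
  have hLs : ∀ z, L.symm z = fu z ∘ e.symm := fun z => by
    simp only [hL, ContinuousLinearEquiv.symm_symm, ContinuousLinearEquiv.trans_apply, hLf]
    rfl
  set R'' := MvPolynomial.rename (Sum.map e.symm e.symm) R' with hR''
  have hRe : (fun z : Amb A B => MvPolynomial.aeval (ra z) R'') =
      fun z => pev (MvPolynomial.map 𝕜.subtype R') (L.symm z) := by
    funext z
    rw [hev, hLs, rc_comp_gl, hR'', MvPolynomial.aeval_rename]
    rfl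
  have hinj : Function.Injective (Sum.map e.symm e.symm) := e.symm.injective.sumMap e.symm.injective
  have hsurj : Function.Surjective (Sum.map e.symm e.symm) := e.symm.surjective.sumMap e.symm.surjective
  have hOK : G.OK fun z => pev (MvPolynomial.map 𝕜.subtype R') (L.symm z) := b1.mono_gl fun z h1 => by
    obtain ⟨f, rfl⟩ := a3
    rw [hev, hLs, map_mul, h1, zero_mul]
  obtain ⟨R₁, C₁, hT, hD⟩ := stDown (G := G) (R := R'') (𝕜₁ := 𝕜₁)
    (fun h1 => hR' (MvPolynomial.rename_injective _ hinj (by rw [← hR'', h1, map_zero])))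
    ((hC'.mono_field hle).comap_gl (Sum.map e.symm e.symm))
    (fun x hx => by
      have h1 := htd _ hx
      have h2 := td_mono_field hle (x ∘ Sum.map e.symm e.symm)
      rw [td_comp_surj_gl _ _ hsurj] at h2
      rw [Fintype.card_congr e]
      omega)
    (by rw [hRe]; exact hOK) b2 b3 (fun h1 => b5 (by rw [mem_preimage, rc_comp_gl]; exact h1))
  have hCe : ra ⁻¹' {x | x ∘ Sum.map e.symm e.symm ∈ C'} = L.symm ⁻¹' (rc ⁻¹' C') := by
    ext z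
    simp only [mem_preimage, mem_setOf_eq, hLs, rc_comp_gl]
    rfl
  rw [hRe, hCe] at hD
  have hpZ := hOK.pZ
  have hLc : Tendsto L.symm (𝓝 G.p) (𝓝 (fu G.p ∘ e.symm)) := by
    rw [← hLs]; exact L.symm.continuous.tendsto _
  have c1 : ∀ᶠ z in 𝓝 G.p, L.symm z ∈ W ∧ (0 < G.r G.p z ↔ 0 < r (L.symm z)) ∧ (G.r G.p z = 0 → r (L.symm z) = 0) := by
    filter_upwards [hLc.eventually (hW.eventually_mem b4), hLc.eventually b6, b7, b1.rR _ hpZ b3] with z d1 d2 d3 d4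
    rw [hLs] at d2 ⊢
    exact ⟨by rwa [hLs] at d1, d3.trans d2.1, fun d5 => d2.2 (d4 d5)⟩
  have c2 : Tendsto (G.b G.p) (𝓝 G.p.2.2) (𝓝 G.p) := by
    have := (hOK.anb _ hpZ).continuousAt
    rwa [ContinuousAt, hOK.bz _ hpZ] at this
  have c3 : ∃ᶠ τ in 𝓝 G.p.2.2, pev R₁ τ ≠ 0 := mem_closure_iff_frequently.1 (dense_ne hD.anR hD.neR _)
  obtain ⟨τ, d1, ⟨d2, d3⟩, d4, d5⟩ := (c3.and_eventually ((hOK.bt _ hpZ).and ((hOK.rgerm _ hpZ b3).and
    (c2.eventually (eventually_eventually_nhds.2 c1))))).exists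
  refine ⟨A, B, inferInstance, inferInstance, L, G, R₁, C₁, G.b G.p τ, hOK, hT, hD, d3, by rwa [d2],
    d5.self_of_nhds.1, ?_⟩
  filter_upwards [d4, d5] with z e1 e2
  rw [← e1]; exact e2.2

/-- Part A: `stWall`, `stGeo`, `ACls.lin`, the initial datum (shrink `W`), `stGlob`, `finrank_amb` -/
theorem stA {n : ℕ} {X : Set E} (hX : CM n X) (hco : Coc X) (h0 : 0 < n) (hc : Cls n X) :
    ∃ (A : Type) (_ : Fintype A) (κ : (A → ℂ) →L[ℝ] (A → ℂ) →L[ℝ] ℝ) (T : ℝ → (A → ℂ) → E → E) (Dl : ℝ → E → E)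
      (ρ : E → E) (Ω : Set E) (k : ℕ), HAct X A κ T Dl ρ Ω ∧ Mfd k (ρ '' X) ∧ k + Fintype.card A + 1 = n ∧
      Cls k (ρ '' X) := by
  classical
  obtain ⟨ι, _, π, R, C, hι, hC, hc⟩ := hc
  have hn : Module.finrank ℂ (ι → ℂ) = n := by rw [Module.finrank_fintype_fun_eq_card, hι]
  obtain ⟨q, W, r, σ, hW, hq, -, hr, hr0, hd, hz, hsec, hwall⟩ := stWall hX hn h0 hc
  have hR : R ≠ 0 := by
    rintro rfl
    obtain ⟨x, -, hx⟩ := hc.ex
    simp [pev] at hx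
  obtain ⟨A, B, _, _, L, G, R₁, C₁, p, hG, hT, hD, hpZ, h1, hpW, hev⟩ := stGeo hR hC hW hq hr hr0 hd hz
  have hnd := (hD.good p hpZ h1).1
  have hn' : Module.finrank ℂ (Amb A B) = n := by rw [← hn, L.toLinearEquiv.finrank_eq]
  obtain ⟨W', hW', hW'o, hpW'⟩ := _root_.mem_nhds_iff.1 ((hev.and (L.symm.continuous.continuousAt.eventually
    (hW.eventually_mem hpW))).and (hG.anr p hpZ hnd).eventually_analyticAt)
  have hsub : ∀ z ∈ W' ∩ {z | 0 < G.r p z}, L.symm z ∈ W ∩ {q' | 0 < r q'} := fun z hz =>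
    ⟨(hW' hz.1).1.2, (hW' hz.1).1.1.1.1 hz.2⟩
  have d : G.Datum X (fun x => L (π x)) p W' ∅ (fun z => σ (L.symm z)) := by
    refine ⟨hW'o, hpW', fun z hz => (hW' hz).2, Small.empty _, fun x _ hx => by simp at hx, ⟨fun z hz => ?_,
      fun z hz => ⟨(hsec.2 _ (hsub z hz)).1, ?_⟩⟩, fun x hx h2 h3 _ h4 => ?_⟩
    · exact (hsec.1 _ (hsub z hz)).comp (L.symm.analyticAt z)
    · show L (π (σ (L.symm z))) = z
      rw [(hsec.2 _ (hsub z hz)).2, L.apply_symm_apply]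
    · have h5 := hW' h2
      simp only [mem_setOf_eq, L.symm_apply_apply] at h5
      refine hwall x ⟨hx.1, fun v hv h6 => hx.2 v hv ?_⟩ h5.1.2 (h5.1.1.2 h3) (notMem_empty _) (closure_mono ?_ h4)
      · have := Dv_clm (L : (ι → ℂ) →L[ℂ] Amb A B) (hc.an.differentiableOn x hx.1) hv
        rw [h6, map_zero] at this
        exact this
      · rintro _ ⟨z, hz, rfl⟩
        exact ⟨_, hsub z hz, rfl⟩
  obtain ⟨T, Dl, ρ, Ω, hA, hM, π₁, hc₁⟩ := stGlob hG hX hn' hco (hc.lin L) hD hpZ h1 d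
  refine ⟨A, inferInstance, G.ka, T, Dl, ρ, Ω, Fintype.card B, hA, hM, ?_, B, inferInstance, π₁, R₁, C₁, rfl, hT, hc₁⟩
  rw [← hn', finrank_amb]

end Crest.Agent.R264
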